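import Vale.Agent.Lib.P140.Defs

open MeasureTheory Set Filter Topology
open scoped ENNReal ContDiff

noncomputable section

namespace Vale.Agent.Lib.P140

lemma hh_nonneg {a b : ℝ} (ha : 0 ≤ a) (hb : 0 < b) : 0 ≤ hh a b := by
  unfold hh
  rcases ha.eq_or_lt with rfl | ha'
  · simpa using hb.le
  · have h := Real.log_le_sub_one_of_pos (div_pos hb ha')
    have h2 : Real.log (a / b) = - Real.log (b / a) := by
      rw [← Real.log_inv, inv_div]
    rw [h2]
    have h3 : a * (b / a - 1) = b - a := by field_simp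
    nlinarith [mul_le_mul_of_nonneg_left h ha'.le]

lemma hh_eq_zero {a b : ℝ} (ha : 0 ≤ a) (hb : 0 < b) (h : hh a b = 0) : a = b := by
  unfold hh at h
  rcases ha.eq_or_lt with rfl | ha'
  · simp at h; linarith
  · by_contra hne
    have hne' : b / a ≠ 1 := by
      intro h1
      apply hne
      field_simp at h1
      linarith
    have h1 := Real.log_lt_sub_one_of_pos (div_pos hb ha') hne'
    have h2 : Real.log (a / b) = - Real.log (b / a) := by
      rw [← Real.log_inv, inv_div]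
    rw [h2] at h
    have h3 : a * (b / a - 1) = b - a := by field_simp
    nlinarith [mul_lt_mul_of_pos_left h1 ha']

lemma hh_shift {a m g : ℝ} (ha : 0 ≤ a) (hm : 0 < m) (hg : 0 < g) :
    hh a g = hh a m - a * Real.log (g / m) - m + g := by
  unfold hh
  rcases ha.eq_or_lt with rfl | ha'
  · simp
  · have : Real.log (a / g) = Real.log (a / m) - Real.log (g / m) := by
      rw [Real.log_div ha'.ne' hg.ne', Real.log_div ha'.ne' hm.ne', Real.log_div hg.ne' hm.ne']
      ring
    rw [this]; ring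

lemma M_pos (v : R3) : 0 < M v := by
  unfold M
  have : (0:ℝ) < 2 * Real.pi := by positivity
  positivity

lemma maxw_pos {ρ T : ℝ} (u : R3) (hρ : 0 < ρ) (hT : 0 < T) (v : R3) : 0 < maxw ρ u T v := by
  unfold maxw
  have : (0:ℝ) < 2 * Real.pi * T := by positivity
  positivity

lemma continuous_M : Continuous M := by
  unfold M; fun_prop

lemma continuous_maxw (ρ : ℝ) (u : R3) (T : ℝ) : Continuous (maxw ρ u T) := by
  unfold maxw; fun_prop (disch := simp)

/-- The logarithm of the ratio of a Maxwellian to the standard one is a quadratic polynomial. -/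
lemma log_ratio {ρ T : ℝ} (u : R3) (hρ : 0 < ρ) (hT : 0 < T) (v : R3) :
    Real.log (maxw ρ u T v / M v) =
      (Real.log (ρ * (2 * Real.pi * T) ^ (-(3 / 2) : ℝ)) - Real.log ((2 * Real.pi) ^ (-(3 / 2) : ℝ))
          - ‖u‖ ^ 2 / (2 * T))
        + ((T - 1) / (2 * T)) * ‖v‖ ^ 2 + (1 / T) * inner ℝ u v := by
  have h2pi : (0:ℝ) < 2 * Real.pi := by positivity
  have h1 : (0:ℝ) < ρ * (2 * Real.pi * T) ^ (-(3 / 2) : ℝ) := by positivity
  have h2 : (0:ℝ) < (2 * Real.pi) ^ (-(3 / 2) : ℝ) := by positivity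
  unfold maxw M
  rw [Real.log_div (by positivity) (by positivity), Real.log_mul h1.ne' (Real.exp_pos _).ne',
    Real.log_mul h2.ne' (Real.exp_pos _).ne', Real.log_exp, Real.log_exp]
  have h3 : ‖v - u‖ ^ 2 = ‖v‖ ^ 2 - 2 * inner ℝ u v + ‖u‖ ^ 2 := by
    rw [norm_sub_sq_real, real_inner_comm]
  rw [h3]
  field_simp
  ring

lemma isFiniteMeasure_muX : IsFiniteMeasure muX := by
  refine ⟨?_⟩
  unfold muX
  rw [Measure.restrict_apply_univ]
  have hsub : cube ⊆ Metric.closedBall (0 : R3) 2 := by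
    intro x hx
    rw [mem_closedBall_zero_iff, EuclideanSpace.norm_eq]
    have h : ∀ i, ‖x i‖ ^ 2 ≤ 1 := by
      intro i
      have := hx i
      rw [Real.norm_eq_abs, sq_abs]
      nlinarith [this.1, this.2]
    have hs : ∑ i, ‖x i‖ ^ 2 ≤ 4 := by
      calc ∑ i, ‖x i‖ ^ 2 ≤ ∑ _i : Fin 3, (1:ℝ) := Finset.sum_le_sum (fun i _ => h i)
        _ ≤ 4 := by simp; norm_num
    calc Real.sqrt (∑ i, ‖x i‖ ^ 2) ≤ Real.sqrt 4 := Real.sqrt_le_sqrt hs
      _ = 2 := by
        rw [show (4:ℝ) = 2 ^ 2 by norm_num]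
        exact Real.sqrt_sq (by norm_num)
  exact lt_of_le_of_lt (measure_mono hsub) measure_closedBall_lt_top

lemma integrable_M : Integrable M (volume : Measure R3) := by
  have h := GaussianFourier.integrable_cexp_neg_mul_sq_norm_add (V := R3) (b := (1/2 : ℂ))
    (by norm_num) (0 : ℂ) (0 : R3)
  have h2 := h.norm
  have h3 := h2.const_mul ((2 * Real.pi) ^ (-(3 / 2) : ℝ))
  refine h3.congr (Eventually.of_forall fun v => ?_)
  simp only [M]
  congr 1
  rw [Complex.norm_exp]
  congr 1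
  simp
  rw [← Complex.ofReal_pow, Complex.ofReal_re]
  ring

lemma integrable_M_snd : Integrable (fun p : R3 × R3 => M p.2) muO := by
  have := isFiniteMeasure_muX
  exact integrable_M.comp_snd muX

section Sol

variable {F0 : R3 → R3 → ℝ} {F : ℝ → R3 → R3 → ℝ}

lemma IsSolution.meas_at (h : IsSolution F0 F) (t : ℝ) :
    Measurable (fun p : R3 × R3 => F t p.1 p.2) :=
  h.meas.comp (measurable_const.prodMk measurable_id)

lemma IsSolution.int_big (h : IsSolution F0 F) {t : ℝ} (ht : 0 ≤ t) :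
    Integrable (fun p : R3 × R3 =>
      F t p.1 p.2 * (1 + ‖p.2‖ ^ 2 + |Real.log (F t p.1 p.2)|)) muO := by
  have hm := h.meas_at t
  have hmeas : Measurable (fun p : R3 × R3 =>
      F t p.1 p.2 * (1 + ‖p.2‖ ^ 2 + |Real.log (F t p.1 p.2)|)) := by
    have h1 : Measurable (fun p : R3 × R3 => ‖p.2‖ ^ 2) := by fun_prop
    have h2 : Measurable (fun p : R3 × R3 => |Real.log (F t p.1 p.2)|) :=
      (Real.measurable_log.comp hm).abs
    exact hm.mul ((measurable_const.add h1).add h2)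
  refine ⟨hmeas.aestronglyMeasurable, ?_⟩
  rw [hasFiniteIntegral_iff_ofReal]
  · obtain ⟨C, hC⟩ := h.bound t
    exact lt_of_le_of_lt (hC t ⟨ht, le_rfl⟩) ENNReal.ofReal_lt_top
  · refine Eventually.of_forall fun p => ?_
    have := h.nonneg t ht p.1 p.2
    simp only [Pi.zero_apply]
    positivity

lemma IsSolution.int_F (h : IsSolution F0 F) {t : ℝ} (ht : 0 ≤ t) :
    Integrable (fun p : R3 × R3 => F t p.1 p.2) muO := by
  refine (h.int_big ht).mono' (h.meas_at t).aestronglyMeasurable (Eventually.of_forall fun p => ?_)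
  have h0 := h.nonneg t ht p.1 p.2
  rw [Real.norm_eq_abs, abs_of_nonneg h0]
  have : (0:ℝ) ≤ ‖p.2‖ ^ 2 + |Real.log (F t p.1 p.2)| := by positivity
  nlinarith

lemma IsSolution.int_E (h : IsSolution F0 F) {t : ℝ} (ht : 0 ≤ t) :
    Integrable (fun p : R3 × R3 => ‖p.2‖ ^ 2 * F t p.1 p.2) muO := by
  have hm : Measurable (fun p : R3 × R3 => ‖p.2‖ ^ 2 * F t p.1 p.2) :=
    (by fun_prop : Measurable (fun p : R3 × R3 => ‖p.2‖ ^ 2)).mul (h.meas_at t)
  refine (h.int_big ht).mono' hm.aestronglyMeasurable (Eventually.of_forall fun p => ?_)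
  have h0 := h.nonneg t ht p.1 p.2
  rw [Real.norm_eq_abs, abs_of_nonneg (by positivity)]
  have : (0:ℝ) ≤ 1 + |Real.log (F t p.1 p.2)| := by positivity
  nlinarith

lemma IsSolution.int_P (h : IsSolution F0 F) {t : ℝ} (ht : 0 ≤ t) :
    Integrable (fun p : R3 × R3 => F t p.1 p.2 • p.2) muO := by
  have hm : Measurable (fun p : R3 × R3 => F t p.1 p.2 • p.2) :=
    (h.meas_at t).smul measurable_snd
  refine (h.int_big ht).mono' hm.aestronglyMeasurable (Eventually.of_forall fun p => ?_)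
  have h0 := h.nonneg t ht p.1 p.2
  rw [norm_smul, Real.norm_eq_abs, abs_of_nonneg h0]
  have h1 : ‖p.2‖ ≤ 1 + ‖p.2‖ ^ 2 + |Real.log (F t p.1 p.2)| := by
    have : (0:ℝ) ≤ |Real.log (F t p.1 p.2)| := abs_nonneg _
    nlinarith [sq_nonneg (‖p.2‖ - 1), norm_nonneg p.2]
  exact mul_le_mul_of_nonneg_left h1 h0

end Sol

end Vale.Agent.Lib.P140
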