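import Mathlib

/-!
# P140: definitions (hard-sphere Boltzmann equation on the periodic box)

Functions on the torus `T³` are periodic functions on `ℝ³`, integrated over the half-open unit cube.
-/

open MeasureTheory Set
open scoped ENNReal

noncomputable section

namespace Vale.Agent.Lib.P140

/-- Euclidean three-space. -/
abbrev R3 : Type := EuclideanSpace ℝ (Fin 3)

/-- The half-open unit cube, a fundamental domain of `T³ = ℝ³/ℤ³`. -/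
def cube : Set R3 := {x | ∀ i, x i ∈ Ico (0 : ℝ) 1}

/-- Lebesgue measure on the fundamental domain (Haar probability measure of `T³`). -/
def muX : Measure R3 := volume.restrict cube

/-- The measure `dx dv` on `Ω = T³ × ℝ³`. -/
def muO : Measure (R3 × R3) := muX.prod volume

/-- The standard Maxwellian `M(v) = (2π)^(-3/2) exp(-|v|²/2)`. -/
def M (v : R3) : ℝ := (2 * Real.pi) ^ (-(3 / 2) : ℝ) * Real.exp (-‖v‖ ^ 2 / 2)

/-- The global Maxwellian of density `ρ`, mean velocity `u` and temperature `T`. -/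
def maxw (ρ : ℝ) (u : R3) (T : ℝ) (v : R3) : ℝ :=
  ρ * (2 * Real.pi * T) ^ (-(3 / 2) : ℝ) * Real.exp (-‖v - u‖ ^ 2 / (2 * T))

/-- `a = (v - w)·ω`. -/
def aa (v w ω : R3) : ℝ := inner ℝ (v - w) ω

/-- `v' = v - a ω`. -/
def vp (v w ω : R3) : R3 := v - aa v w ω • ω

/-- `w' = w + a ω`. -/
def wp (v w ω : R3) : R3 := w + aa v w ω • ω

/-- The surface measure of `S²`. -/
def sigma : Measure (Metric.sphere (0 : R3) 1) := (volume : Measure R3).toSphere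

/-- The gain term `Q⁺(v)` of `f` (all factors at the same `(t,x)`), with values in `[0,∞]`. -/
def Qplus (f : R3 → ℝ) (v : R3) : ℝ≥0∞ :=
  ∫⁻ w, ∫⁻ ω, ENNReal.ofReal (|aa v w ω| * f (vp v w ω) * f (wp v w ω)) ∂sigma

/-- The loss term `Q⁻(v)` of `f`, with values in `[0,∞]`. -/
def Qminus (f : R3 → ℝ) (v : R3) : ℝ≥0∞ :=
  ∫⁻ w, ∫⁻ _ω : Metric.sphere (0 : R3) 1, ENNReal.ofReal (|aa v w _ω| * f v * f w) ∂sigma

/-- The value of `(p - q) log (p / q)` for `p, q ≥ 0`, with its lower semicontinuous extension: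
`0` at `p = q` and `+∞` when exactly one of the two products vanishes. -/
def gap (p q : ℝ) : ℝ≥0∞ :=
  if p = q then 0
  else if p ≤ 0 ∨ q ≤ 0 then ⊤
  else ENNReal.ofReal ((p - q) * Real.log (p / q))

/-- The entropy production `D(F)` of `F(x,v)`. -/
def Dis (F : R3 → R3 → ℝ) : ℝ≥0∞ :=
  ∫⁻ x, ∫⁻ v, ∫⁻ w, ∫⁻ ω,
      (1 / 4 : ℝ≥0∞) * ENNReal.ofReal |aa v w ω| *
        gap (F x (vp v w ω) * F x (wp v w ω)) (F x v * F x w) ∂sigma ∂volume ∂volume ∂muX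

/-- The relative entropy `H_M(F) = ∫_Ω (F log (F / M) - F + M)`; the integrand is nonnegative, and
`0 log 0 = 0`. -/
def HM (F : R3 → R3 → ℝ) : ℝ≥0∞ :=
  ∫⁻ p, ENNReal.ofReal
      (F p.1 p.2 * Real.log (F p.1 p.2 / M p.2) - F p.1 p.2 + M p.2) ∂muO

/-- The integrand `a log (a / b) - a + b` of the relative entropy of `a` with respect to `b`. -/
def hh (a b : ℝ) : ℝ := a * Real.log (a / b) - a + b

/-- Smooth test functions on `[0,∞) × T³`: smooth, periodic in `x`, vanishing for large `t`. -/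
structure IsTest2 (φ : ℝ → R3 → ℝ) : Prop where
  smooth : ContDiff ℝ ((⊤ : ℕ∞) : WithTop ℕ∞) (fun p : ℝ × R3 => φ p.1 p.2)
  periodic : ∀ t x i, φ t (x + EuclideanSpace.single i (1 : ℝ)) = φ t x
  support : ∃ R : ℝ, ∀ t x, R ≤ t → φ t x = 0

/-- Smooth test functions on `[0,∞) × T³ × ℝ³`: smooth, periodic in `x`, vanishing for large `t` and
for large `v`. -/
structure IsTest3 (φ : ℝ → R3 → R3 → ℝ) : Prop where
  smooth : ContDiff ℝ ((⊤ : ℕ∞) : WithTop ℕ∞) (fun p : ℝ × R3 × R3 => φ p.1 p.2.1 p.2.2)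
  periodic : ∀ t x v i, φ t (x + EuclideanSpace.single i (1 : ℝ)) v = φ t x v
  support : ∃ R : ℝ, ∀ t x v, (R ≤ t ∨ R ≤ ‖v‖) → φ t x v = 0

/-- The admissible renormalizations: `β ∈ C¹([0,∞))` with derivative `dβ`, `β(0) = 0`, and
`|β'(z)| ≤ C / (1 + z)`. -/
structure IsRenorm (β dβ : ℝ → ℝ) : Prop where
  deriv : ∀ z, 0 ≤ z → HasDerivWithinAt β (dβ z) (Ici 0) z
  cont : ContinuousOn dβ (Ici 0)
  zero : β 0 = 0
  bound : ∃ C : ℝ, ∀ z, 0 ≤ z → |dβ z| ≤ C / (1 + z)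

/-- `F(t,x,v)` is a renormalized entropy solution with datum `F0(x,v)`, as in the problem file:
clause (i) is `init`, `weakCont`, `bound`; clause (ii) is `lossInt`, `gainInt`, `renorm`; clause (iii)
is `massBalance`, `momentum`, `energy`, `entropy`. -/
structure IsSolution (F0 : R3 → R3 → ℝ) (F : ℝ → R3 → R3 → ℝ) : Prop where
  meas : Measurable (fun p : ℝ × R3 × R3 => F p.1 p.2.1 p.2.2)
  nonneg : ∀ t, 0 ≤ t → ∀ x v, 0 ≤ F t x v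
  periodic : ∀ t x v i, F t (x + EuclideanSpace.single i (1 : ℝ)) v = F t x v
  init : ∀ᵐ p ∂muO, F 0 p.1 p.2 = F0 p.1 p.2
  weakCont : ∀ ψ : R3 × R3 → ℝ, Measurable ψ → (∃ C : ℝ, ∀ p, |ψ p| ≤ C) →
    ContinuousOn (fun t => ∫ p, ψ p * F t p.1 p.2 ∂muO) (Ici 0)
  bound : ∀ T : ℝ, ∃ C : ℝ, ∀ t ∈ Icc 0 T,
    ∫⁻ p, ENNReal.ofReal
      (F t p.1 p.2 * (1 + ‖p.2‖ ^ 2 + |Real.log (F t p.1 p.2)|)) ∂muO ≤ ENNReal.ofReal C
  gainInt : ∀ T : ℝ, ∫⁻ t in Icc 0 T, ∫⁻ p,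
    Qplus (F t p.1) p.2 / ENNReal.ofReal (1 + F t p.1 p.2 / M p.2) ∂muO < ⊤
  lossInt : ∀ T : ℝ, ∫⁻ t in Icc 0 T, ∫⁻ p,
    Qminus (F t p.1) p.2 / ENNReal.ofReal (1 + F t p.1 p.2 / M p.2) ∂muO < ⊤
  renorm : ∀ β dβ : ℝ → ℝ, IsRenorm β dβ → ∀ φ : ℝ → R3 → R3 → ℝ, IsTest3 φ →
    (∫ t in Ioi (0 : ℝ), ∫ p, M p.2 * β (F t p.1 p.2 / M p.2) *
        (deriv (fun s => φ s p.1 p.2) t + fderiv ℝ (fun y => φ t y p.2) p.1 p.2) ∂muO)
      + (∫ p, M p.2 * β (F0 p.1 p.2 / M p.2) * φ 0 p.1 p.2 ∂muO)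
      + (∫ t in Ioi (0 : ℝ), ∫ p, dβ (F t p.1 p.2 / M p.2) *
        ((Qplus (F t p.1) p.2).toReal - (Qminus (F t p.1) p.2).toReal) * φ t p.1 p.2 ∂muO) = 0
  massBalance : ∀ φ : ℝ → R3 → ℝ, IsTest2 φ →
    (∫ t in Ioi (0 : ℝ), ∫ x, ((∫ v, F t x v) * deriv (fun s => φ s x) t +
        fderiv ℝ (φ t) x (∫ v, F t x v • v)) ∂muX)
      + (∫ x, (∫ v, F0 x v) * φ 0 x ∂muX) = 0
  momentum : ∀ t, 0 ≤ t → ∀ s, 0 ≤ s →
    ∫ p, F t p.1 p.2 • p.2 ∂muO = ∫ p, F s p.1 p.2 • p.2 ∂muO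
  energy : ∀ t, 0 ≤ t → ∫ p, ‖p.2‖ ^ 2 * F t p.1 p.2 ∂muO ≤ ∫ p, ‖p.2‖ ^ 2 * F0 p.1 p.2 ∂muO
  entropy : ∀ t, 0 ≤ t → HM (F t) + ∫⁻ s in Icc 0 t, Dis (F s) ≤ HM F0

end Vale.Agent.Lib.P140
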