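import Vale.Agent.Lib.P140.Periodic

open MeasureTheory Set Filter Topology
open scoped ENNReal

noncomputable section

namespace Vale.Agent.Lib.P140

variable {ρ T : ℝ} {u : R3}

/-! ### Moments of the Maxwellian -/

lemma integrable_exp_wide (u : R3) {T : ℝ} (hT : 0 < T) :
    Integrable (fun v : R3 => Real.exp (-‖v - u‖ ^ 2 / (2 * (2 * T)))) volume := by
  have hT2 : 0 < 2 * T := by positivity
  have h := integrable_maxw 1 u hT2
  have hC : (0:ℝ) < 1 * (2 * Real.pi * (2 * T)) ^ (-(3 / 2) : ℝ) := by positivity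
  refine (h.const_mul (1 * (2 * Real.pi * (2 * T)) ^ (-(3 / 2) : ℝ))⁻¹).congr
    (Eventually.of_forall fun v => ?_)
  simp only [maxw]
  rw [← mul_assoc, inv_mul_cancel₀ hC.ne', one_mul]

lemma sq_mul_exp_le (u v : R3) {T : ℝ} (hT : 0 < T) :
    ‖v‖ ^ 2 * Real.exp (-‖v - u‖ ^ 2 / (2 * T)) ≤
      (8 * T + 2 * ‖u‖ ^ 2) * Real.exp (-‖v - u‖ ^ 2 / (2 * (2 * T))) := by
  set x := ‖v - u‖ ^ 2 with hx
  have hx0 : 0 ≤ x := by positivity
  have hnorm : ‖v‖ ^ 2 ≤ 2 * x + 2 * ‖u‖ ^ 2 := by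
    have h1 : ‖v‖ ≤ ‖v - u‖ + ‖u‖ := by
      have := norm_add_le (v - u) u
      simpa using this
    have h2 : ‖v‖ ^ 2 ≤ (‖v - u‖ + ‖u‖) ^ 2 := pow_le_pow_left₀ (norm_nonneg _) h1 2
    nlinarith [sq_nonneg (‖v - u‖ - ‖u‖)]
  have hsplit : Real.exp (-x / (2 * T)) =
      Real.exp (-x / (2 * (2 * T))) * Real.exp (-(x / (4 * T))) := by
    rw [← Real.exp_add]; congr 1; field_simp; ring
  have hy : x / (4 * T) * Real.exp (-(x / (4 * T))) ≤ 1 := by
    have h1 := Real.add_one_le_exp (x / (4 * T))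
    have h2 : x / (4 * T) ≤ Real.exp (x / (4 * T)) := by linarith
    have h3 : Real.exp (x / (4 * T)) * Real.exp (-(x / (4 * T))) = 1 := by
      rw [← Real.exp_add]; simp
    calc _ ≤ Real.exp (x / (4 * T)) * Real.exp (-(x / (4 * T))) :=
          mul_le_mul_of_nonneg_right h2 (Real.exp_pos _).le
      _ = 1 := h3
  have hy2 : x * Real.exp (-(x / (4 * T))) ≤ 4 * T := by
    have h4 : x * Real.exp (-(x / (4 * T))) = (4 * T) * (x / (4 * T) * Real.exp (-(x / (4 * T)))) := by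
      field_simp
    rw [h4]
    have : (4 * T) * (x / (4 * T) * Real.exp (-(x / (4 * T)))) ≤ (4 * T) * 1 :=
      mul_le_mul_of_nonneg_left hy (by positivity)
    simpa using this
  have hexp1 : Real.exp (-(x / (4 * T))) ≤ 1 := by
    rw [Real.exp_le_one_iff]
    have : 0 ≤ x / (4 * T) := by positivity
    linarith
  rw [hsplit]
  set E := Real.exp (-x / (2 * (2 * T))) with hE
  set D := Real.exp (-(x / (4 * T))) with hD
  have hE0 : 0 < E := Real.exp_pos _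
  have hD0 : 0 < D := Real.exp_pos _
  have h5 : ‖v‖ ^ 2 * D ≤ 8 * T + 2 * ‖u‖ ^ 2 := by
    have h6 : ‖v‖ ^ 2 * D ≤ (2 * x + 2 * ‖u‖ ^ 2) * D :=
      mul_le_mul_of_nonneg_right hnorm hD0.le
    have h7 : 2 * ‖u‖ ^ 2 * D ≤ 2 * ‖u‖ ^ 2 * 1 :=
      mul_le_mul_of_nonneg_left hexp1 (by positivity)
    nlinarith
  calc ‖v‖ ^ 2 * (E * D) = E * (‖v‖ ^ 2 * D) := by ring
    _ ≤ E * (8 * T + 2 * ‖u‖ ^ 2) := mul_le_mul_of_nonneg_left h5 hE0.le
    _ = _ := by ring

lemma integrable_sq_maxw (ρ : ℝ) (u : R3) {T : ℝ} (hρ : 0 < ρ) (hT : 0 < T) :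
    Integrable (fun v : R3 => ‖v‖ ^ 2 * maxw ρ u T v) volume := by
  have hC : (0:ℝ) < ρ * (2 * Real.pi * T) ^ (-(3 / 2) : ℝ) := by positivity
  have hd := (integrable_exp_wide u hT).const_mul
    ((ρ * (2 * Real.pi * T) ^ (-(3 / 2) : ℝ)) * (8 * T + 2 * ‖u‖ ^ 2))
  refine hd.mono' ?_ (Eventually.of_forall fun v => ?_)
  · exact ((continuous_norm.pow 2).mul (continuous_maxw ρ u T)).aestronglyMeasurable
  · have h0 : 0 < maxw ρ u T v := maxw_pos u hρ hT v
    rw [Real.norm_eq_abs, abs_of_nonneg (by positivity)]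
    have h1 := sq_mul_exp_le u v hT
    simp only [maxw]
    calc ‖v‖ ^ 2 * (ρ * (2 * Real.pi * T) ^ (-(3 / 2) : ℝ) * Real.exp (-‖v - u‖ ^ 2 / (2 * T)))
        = (ρ * (2 * Real.pi * T) ^ (-(3 / 2) : ℝ)) *
          (‖v‖ ^ 2 * Real.exp (-‖v - u‖ ^ 2 / (2 * T))) := by ring
      _ ≤ (ρ * (2 * Real.pi * T) ^ (-(3 / 2) : ℝ)) *
          ((8 * T + 2 * ‖u‖ ^ 2) * Real.exp (-‖v - u‖ ^ 2 / (2 * (2 * T)))) :=
        mul_le_mul_of_nonneg_left h1 hC.le
      _ = _ := by ring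

lemma integrable_big_maxw (ρ : ℝ) (u : R3) {T : ℝ} (hρ : 0 < ρ) (hT : 0 < T) :
    Integrable (fun v : R3 =>
      maxw ρ u T v * (1 + ‖v‖ ^ 2 + |Real.log (maxw ρ u T v)|)) volume := by
  have hC : (0:ℝ) < ρ * (2 * Real.pi * T) ^ (-(3 / 2) : ℝ) := by positivity
  set c := Real.log (ρ * (2 * Real.pi * T) ^ (-(3 / 2) : ℝ)) with hc
  have hlog : ∀ v, Real.log (maxw ρ u T v) = c + (-‖v - u‖ ^ 2 / (2 * T)) := by
    intro v
    unfold maxw
    rw [Real.log_mul hC.ne' (Real.exp_pos _).ne', Real.log_exp]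
  have hd := ((integrable_maxw ρ u hT).const_mul (1 + |c| + ‖u‖ ^ 2 / T)).add
    ((integrable_sq_maxw ρ u hρ hT).const_mul (1 + 1 / T))
  refine hd.mono' ?_ (Eventually.of_forall fun v => ?_)
  · have hcm := continuous_maxw ρ u T
    have hm : Measurable (fun v => |Real.log (maxw ρ u T v)|) :=
      (Real.measurable_log.comp hcm.measurable).abs
    exact (hcm.measurable.mul (((measurable_const.add (continuous_norm.pow 2).measurable)).add
      hm)).aestronglyMeasurable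
  · have h0 : 0 < maxw ρ u T v := maxw_pos u hρ hT v
    rw [Real.norm_eq_abs, abs_of_nonneg (by positivity)]
    simp only [Pi.add_apply]
    have h1 : |Real.log (maxw ρ u T v)| ≤ |c| + (‖v‖ ^ 2 + ‖u‖ ^ 2) / T := by
      rw [hlog]
      refine (abs_add_le _ _).trans ?_
      have h2 : |(-‖v - u‖ ^ 2 / (2 * T))| = ‖v - u‖ ^ 2 / (2 * T) := by
        rw [abs_of_nonpos]
        · ring
        · exact div_nonpos_of_nonpos_of_nonneg (by nlinarith [sq_nonneg ‖v - u‖]) (by positivity)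
      rw [h2]
      have h3 : ‖v - u‖ ^ 2 ≤ 2 * ‖v‖ ^ 2 + 2 * ‖u‖ ^ 2 := by
        have h4 : ‖v - u‖ ≤ ‖v‖ + ‖u‖ := norm_sub_le _ _
        have h5 : ‖v - u‖ ^ 2 ≤ (‖v‖ + ‖u‖) ^ 2 := pow_le_pow_left₀ (norm_nonneg _) h4 2
        nlinarith [sq_nonneg (‖v‖ - ‖u‖)]
      have h6 : ‖v - u‖ ^ 2 / (2 * T) ≤ (‖v‖ ^ 2 + ‖u‖ ^ 2) / T := by
        rw [div_le_div_iff₀ (by positivity) hT]
        nlinarith
      linarith
    have h7 : 1 + ‖v‖ ^ 2 + |Real.log (maxw ρ u T v)| ≤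
        (1 + |c| + ‖u‖ ^ 2 / T) + (1 + 1 / T) * ‖v‖ ^ 2 := by
      have : (‖v‖ ^ 2 + ‖u‖ ^ 2) / T = ‖v‖ ^ 2 / T + ‖u‖ ^ 2 / T := by ring
      have h8 : (1 + 1 / T) * ‖v‖ ^ 2 = ‖v‖ ^ 2 + ‖v‖ ^ 2 / T := by ring
      linarith
    calc _ ≤ maxw ρ u T v * ((1 + |c| + ‖u‖ ^ 2 / T) + (1 + 1 / T) * ‖v‖ ^ 2) :=
          mul_le_mul_of_nonneg_left h7 h0.le
      _ = _ := by ring

lemma integrable_one_add_norm_maxw (ρ : ℝ) (u : R3) {T : ℝ} (hρ : 0 < ρ) (hT : 0 < T) :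
    Integrable (fun v : R3 => (1 + ‖v‖) * maxw ρ u T v) volume := by
  have hd := ((integrable_maxw ρ u hT).const_mul 2).add (integrable_sq_maxw ρ u hρ hT)
  refine hd.mono' ?_ (Eventually.of_forall fun v => ?_)
  · exact ((continuous_const.add continuous_norm).mul (continuous_maxw ρ u T)).aestronglyMeasurable
  · have h0 : 0 < maxw ρ u T v := maxw_pos u hρ hT v
    rw [Real.norm_eq_abs, abs_of_nonneg (by positivity)]
    simp only [Pi.add_apply]
    have : 1 + ‖v‖ ≤ 2 + ‖v‖ ^ 2 := by nlinarith [sq_nonneg (‖v‖ - 1)]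
    calc _ ≤ (2 + ‖v‖ ^ 2) * maxw ρ u T v := mul_le_mul_of_nonneg_right this h0.le
      _ = _ := by ring

/-! ### Collision invariance -/

lemma norm_coll (u v w : R3) (ω : R3) (hω : ‖ω‖ = 1) :
    ‖vp v w ω - u‖ ^ 2 + ‖wp v w ω - u‖ ^ 2 = ‖v - u‖ ^ 2 + ‖w - u‖ ^ 2 := by
  have e1 : vp v w ω - u = (v - u) - aa v w ω • ω := by unfold vp; abel
  have e2 : wp v w ω - u = (w - u) + aa v w ω • ω := by unfold wp; abel
  have e3 : aa v w ω = inner ℝ (v - u) ω - inner ℝ (w - u) ω := by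
    unfold aa
    rw [← inner_sub_left]
    congr 1
    abel
  rw [e1, e2, norm_sub_sq_real, norm_add_sq_real, inner_smul_right, inner_smul_right, norm_smul,
    hω, e3]
  simp only [Real.norm_eq_abs, mul_one, sq_abs]
  ring

lemma maxw_coll (ρ : ℝ) (u : R3) (T : ℝ) (v w ω : R3) (hω : ‖ω‖ = 1) :
    maxw ρ u T (vp v w ω) * maxw ρ u T (wp v w ω) = maxw ρ u T v * maxw ρ u T w := by
  unfold maxw
  have h1 := norm_coll u v w ω hω
  set C := ρ * (2 * Real.pi * T) ^ (-(3 / 2) : ℝ)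
  have h2 : ∀ a b : ℝ, (C * Real.exp (-a / (2 * T))) * (C * Real.exp (-b / (2 * T))) =
      C ^ 2 * Real.exp (-(a + b) / (2 * T)) := by
    intro a b
    have : -(a + b) / (2 * T) = -a / (2 * T) + -b / (2 * T) := by ring
    rw [this, Real.exp_add]; ring
  rw [h2, h2, h1]

lemma Qplus_eq_Qminus (ρ : ℝ) (u : R3) (T : ℝ) (v : R3) :
    Qplus (maxw ρ u T) v = Qminus (maxw ρ u T) v := by
  unfold Qplus Qminus
  refine lintegral_congr fun w => lintegral_congr fun ω => ?_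
  have hω : ‖(ω : R3)‖ = 1 := by simp
  rw [mul_assoc, maxw_coll ρ u T v w ω hω, mul_assoc]

lemma Dis_maxw (ρ : ℝ) (u : R3) (T : ℝ) : Dis (fun _ v => maxw ρ u T v) = 0 := by
  unfold Dis
  simp only []
  have : ∀ (v w : R3) (ω : Metric.sphere (0 : R3) 1),
      gap (maxw ρ u T (vp v w ω) * maxw ρ u T (wp v w ω)) (maxw ρ u T v * maxw ρ u T w) = 0 := by
    intro v w ω
    have hω : ‖(ω : R3)‖ = 1 := by simp
    unfold gap
    rw [if_pos (maxw_coll ρ u T v w ω hω)]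
  simp [this]

/-! ### The bound on the loss term -/

lemma isFiniteMeasure_sigma : IsFiniteMeasure sigma := by
  refine ⟨?_⟩
  unfold sigma
  rw [Measure.toSphere_apply_univ]
  exact ENNReal.mul_lt_top (by simp) measure_ball_lt_top

lemma Qminus_le (hρ : 0 < ρ) (hT : 0 < T) (v : R3) :
    Qminus (maxw ρ u T) v ≤
      ENNReal.ofReal ((1 + ‖v‖) * maxw ρ u T v) *
        ((∫⁻ w, ENNReal.ofReal ((1 + ‖w‖) * maxw ρ u T w)) * sigma Set.univ) := by
  unfold Qminus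
  have hstep : ∀ w : R3, ∫⁻ ω : Metric.sphere (0 : R3) 1,
      ENNReal.ofReal (|aa v w ω| * maxw ρ u T v * maxw ρ u T w) ∂sigma ≤
      ENNReal.ofReal ((1 + ‖v‖) * maxw ρ u T v) *
        (ENNReal.ofReal ((1 + ‖w‖) * maxw ρ u T w) * sigma Set.univ) := by
    intro w
    have hb : ∀ ω : Metric.sphere (0 : R3) 1,
        ENNReal.ofReal (|aa v w ω| * maxw ρ u T v * maxw ρ u T w) ≤
          ENNReal.ofReal ((1 + ‖v‖) * maxw ρ u T v * ((1 + ‖w‖) * maxw ρ u T w)) := by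
      intro ω
      apply ENNReal.ofReal_le_ofReal
      have hω : ‖(ω : R3)‖ = 1 := by simp
      have h1 : |aa v w ω| ≤ (1 + ‖v‖) * (1 + ‖w‖) := by
        unfold aa
        have h2 := abs_real_inner_le_norm (v - w) (ω : R3)
        rw [hω, mul_one] at h2
        have h3 : ‖v - w‖ ≤ ‖v‖ + ‖w‖ := norm_sub_le _ _
        nlinarith [norm_nonneg v, norm_nonneg w, mul_nonneg (norm_nonneg v) (norm_nonneg w)]
      have h0v := maxw_pos u hρ hT v
      have h0w := maxw_pos u hρ hT w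
      have : |aa v w ω| * (maxw ρ u T v * maxw ρ u T w) ≤
          (1 + ‖v‖) * (1 + ‖w‖) * (maxw ρ u T v * maxw ρ u T w) :=
        mul_le_mul_of_nonneg_right h1 (by positivity)
      nlinarith
    calc _ ≤ ∫⁻ _ω : Metric.sphere (0 : R3) 1,
          ENNReal.ofReal ((1 + ‖v‖) * maxw ρ u T v * ((1 + ‖w‖) * maxw ρ u T w)) ∂sigma :=
          lintegral_mono hb
      _ = _ := by
        rw [lintegral_const, ENNReal.ofReal_mul (by
          have := maxw_pos u hρ hT v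
          positivity)]
        rw [mul_assoc]
  calc _ ≤ ∫⁻ w, ENNReal.ofReal ((1 + ‖v‖) * maxw ρ u T v) *
        (ENNReal.ofReal ((1 + ‖w‖) * maxw ρ u T w) * sigma Set.univ) := lintegral_mono hstep
    _ = _ := by
      have hm : Measurable fun w : R3 => ENNReal.ofReal ((1 + ‖w‖) * maxw ρ u T w) := by
        have := continuous_maxw ρ u T
        exact ((continuous_const.add continuous_norm).mul this).measurable.ennreal_ofReal
      rw [lintegral_const_mul _ (hm.mul_const _), lintegral_mul_const _ hm]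

lemma lossInt_maxw (hρ : 0 < ρ) (hT : 0 < T) (R : ℝ) :
    ∫⁻ _t in Icc 0 R, ∫⁻ p : R3 × R3, Qminus (maxw ρ u T) p.2 /
      ENNReal.ofReal (1 + maxw ρ u T p.2 / M p.2) ∂muO < ⊤ := by
  have := isFiniteMeasure_muX
  have := isFiniteMeasure_sigma
  have hL : (∫⁻ w, ENNReal.ofReal ((1 + ‖w‖) * maxw ρ u T w)) < ⊤ := by
    have h := (integrable_one_add_norm_maxw ρ u hρ hT).hasFiniteIntegral
    rw [hasFiniteIntegral_iff_ofReal] at h
    · exact h
    · exact Eventually.of_forall fun v => by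
        have := maxw_pos u hρ hT v
        simp only [Pi.zero_apply]
        positivity
  have hLp : (∫⁻ p : R3 × R3, ENNReal.ofReal ((1 + ‖p.2‖) * maxw ρ u T p.2) ∂muO) < ⊤ := by
    have h := ((integrable_one_add_norm_maxw ρ u hρ hT).comp_snd muX).hasFiniteIntegral
    rw [hasFiniteIntegral_iff_ofReal] at h
    · exact h
    · exact Eventually.of_forall fun p => by
        have := maxw_pos u hρ hT p.2
        simp only [Pi.zero_apply]
        positivity
  set K := (∫⁻ w, ENNReal.ofReal ((1 + ‖w‖) * maxw ρ u T w)) * sigma Set.univ with hK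
  have hKfin : K < ⊤ := ENNReal.mul_lt_top hL (measure_lt_top _ _)
  have hptw : ∀ p : R3 × R3, Qminus (maxw ρ u T) p.2 /
      ENNReal.ofReal (1 + maxw ρ u T p.2 / M p.2) ≤
      ENNReal.ofReal ((1 + ‖p.2‖) * maxw ρ u T p.2) * K := by
    intro p
    have h0 : 0 < maxw ρ u T p.2 / M p.2 := div_pos (maxw_pos u hρ hT _) (M_pos _)
    have hd : (1 : ℝ≥0∞) ≤ ENNReal.ofReal (1 + maxw ρ u T p.2 / M p.2) := by
      rw [← ENNReal.ofReal_one]
      exact ENNReal.ofReal_le_ofReal (by linarith)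
    calc _ ≤ Qminus (maxw ρ u T) p.2 / 1 := ENNReal.div_le_div_left hd _
      _ = Qminus (maxw ρ u T) p.2 := by simp
      _ ≤ _ := Qminus_le hρ hT p.2
  have hin : (∫⁻ p : R3 × R3, Qminus (maxw ρ u T) p.2 /
      ENNReal.ofReal (1 + maxw ρ u T p.2 / M p.2) ∂muO) < ⊤ := by
    refine lt_of_le_of_lt (lintegral_mono hptw) ?_
    have hm : Measurable fun p : R3 × R3 => ENNReal.ofReal ((1 + ‖p.2‖) * maxw ρ u T p.2) := by
      have := continuous_maxw ρ u T
      exact (((continuous_const.add continuous_norm).mul this).measurable.comp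
        measurable_snd).ennreal_ofReal
    rw [lintegral_mul_const _ hm]
    exact ENNReal.mul_lt_top hLp hKfin
  rw [setLIntegral_const]
  refine ENNReal.mul_lt_top hin ?_
  rw [Real.volume_Icc]
  exact ENNReal.ofReal_lt_top

end Vale.Agent.Lib.P140
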