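import Vale.Agent.Lib.P140.Exist1

open MeasureTheory Set Filter Topology
open scoped ENNReal

noncomputable section

namespace Vale.Agent.Lib.P140

lemma cube_subset : cube ⊆ Metric.closedBall (0 : R3) 2 := by
  intro x hx
  rw [mem_closedBall_zero_iff, EuclideanSpace.norm_eq]
  have h : ∀ i, ‖x i‖ ^ 2 ≤ 1 := by
    intro i
    have := hx i
    rw [Real.norm_eq_abs, sq_abs]
    nlinarith [this.1, this.2]
  have hs : ∑ i, ‖x i‖ ^ 2 ≤ 4 := by
    calc ∑ i, ‖x i‖ ^ 2 ≤ ∑ _i : Fin 3, (1:ℝ) := Finset.sum_le_sum (fun i _ => h i)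
      _ ≤ 4 := by simp; norm_num
  calc Real.sqrt (∑ i, ‖x i‖ ^ 2) ≤ Real.sqrt 4 := Real.sqrt_le_sqrt hs
    _ = 2 := by
      rw [show (4:ℝ) = 2 ^ 2 by norm_num]
      exact Real.sqrt_sq (by norm_num)

lemma muO_eq : muO = ((volume : Measure R3).prod (volume : Measure R3)).restrict (cube ×ˢ univ) := by
  unfold muO muX
  rw [← Measure.prod_restrict, Measure.restrict_univ]

lemma nu_eq : ((volume : Measure ℝ).restrict (Ioi 0)).prod muO =
    ((volume : Measure ℝ).prod ((volume : Measure R3).prod (volume : Measure R3))).restrict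
      (Ioi 0 ×ˢ (cube ×ˢ univ)) := by
  rw [muO_eq, Measure.prod_restrict]

lemma nu2_eq : ((volume : Measure ℝ).restrict (Ioi 0)).prod muX =
    ((volume : Measure ℝ).prod (volume : Measure R3)).restrict (Ioi 0 ×ˢ cube) := by
  unfold muX
  rw [Measure.prod_restrict]

/-- Integrability of continuous functions vanishing for large `t` and `v`. -/
lemma int_nu (Ψ : ℝ × R3 × R3 → ℝ) (hΨ : Continuous Ψ) (R : ℝ)
    (hz : ∀ q, (R < q.1 ∨ R < ‖q.2.2‖) → Ψ q = 0) :
    Integrable Ψ (((volume : Measure ℝ).restrict (Ioi 0)).prod muO) := by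
  rw [nu_eq]
  have hK : IsCompact (Icc 0 R ×ˢ (Metric.closedBall (0 : R3) 2 ×ˢ Metric.closedBall (0 : R3) R)) :=
    isCompact_Icc.prod ((isCompact_closedBall _ _).prod (isCompact_closedBall _ _))
  have h1 := hΨ.continuousOn.integrableOn_compact
    (μ := (volume : Measure ℝ).prod ((volume : Measure R3).prod (volume : Measure R3))) hK
  refine h1.of_forall_sdiff_eq_zero ?_ ?_
  · exact measurableSet_Ioi.prod (measurableSet_cube.prod MeasurableSet.univ)
  · rintro ⟨t, x, v⟩ ⟨⟨ht, hx, -⟩, hnot⟩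
    apply hz
    by_contra hcon
    push Not at hcon
    apply hnot
    refine ⟨⟨le_of_lt ht, hcon.1⟩, cube_subset hx, ?_⟩
    simpa using hcon.2

lemma int_muO (Ψ : R3 × R3 → ℝ) (hΨ : Continuous Ψ) (R : ℝ)
    (hz : ∀ p, R < ‖p.2‖ → Ψ p = 0) : Integrable Ψ muO := by
  rw [muO_eq]
  have hK : IsCompact (Metric.closedBall (0 : R3) 2 ×ˢ Metric.closedBall (0 : R3) R) :=
    (isCompact_closedBall _ _).prod (isCompact_closedBall _ _)
  have h1 := hΨ.continuousOn.integrableOn_compact
    (μ := (volume : Measure R3).prod (volume : Measure R3)) hK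
  refine h1.of_forall_sdiff_eq_zero (measurableSet_cube.prod MeasurableSet.univ) ?_
  rintro ⟨x, v⟩ ⟨⟨hx, -⟩, hnot⟩
  apply hz
  by_contra hcon
  push Not at hcon
  apply hnot
  refine ⟨cube_subset hx, ?_⟩
  simpa using hcon

lemma int_nu2 (Ψ : ℝ × R3 → ℝ) (hΨ : Continuous Ψ) (R : ℝ)
    (hz : ∀ q, R < q.1 → Ψ q = 0) :
    Integrable Ψ (((volume : Measure ℝ).restrict (Ioi 0)).prod muX) := by
  rw [nu2_eq]
  have hK : IsCompact (Icc 0 R ×ˢ Metric.closedBall (0 : R3) 2) :=
    isCompact_Icc.prod (isCompact_closedBall _ _)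
  have h1 := hΨ.continuousOn.integrableOn_compact
    (μ := (volume : Measure ℝ).prod (volume : Measure R3)) hK
  refine h1.of_forall_sdiff_eq_zero (measurableSet_Ioi.prod measurableSet_cube) ?_
  rintro ⟨t, x⟩ ⟨⟨ht, hx⟩, hnot⟩
  apply hz
  by_contra hcon
  push Not at hcon
  exact hnot ⟨⟨le_of_lt ht, hcon⟩, cube_subset hx⟩

lemma int_muX (h : R3 → ℝ) (hc : Continuous h) : Integrable h muX := by
  have h1 := hc.continuousOn.integrableOn_compact (μ := (volume : Measure R3))
    (isCompact_closedBall (0 : R3) 2)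
  exact h1.mono_set cube_subset

lemma deriv_zero_of_large (f : ℝ → ℝ) (R : ℝ) (hf : ∀ s, R ≤ s → f s = 0) (t : ℝ) (ht : R < t) :
    deriv f t = 0 := by
  have : f =ᶠ[𝓝 t] fun _ => 0 := by
    filter_upwards [Ioi_mem_nhds ht] with s hs using hf s (le_of_lt hs)
  rw [this.deriv_eq]; simp

lemma ftc_one (f : ℝ → ℝ) (hd : Differentiable ℝ f) (hc : Continuous (deriv f)) (R : ℝ)
    (hR : ∀ t, R ≤ t → f t = 0) : ∫ t in Ioi (0:ℝ), deriv f t = - f 0 := by
  have hint : IntegrableOn (deriv f) (Ioi 0) := by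
    have h1 := hc.continuousOn.integrableOn_compact (μ := (volume : Measure ℝ))
      (isCompact_Icc (a := (0:ℝ)) (b := R))
    refine h1.of_forall_sdiff_eq_zero measurableSet_Ioi ?_
    rintro t ⟨ht, hnot⟩
    apply deriv_zero_of_large f R hR
    by_contra hcon
    exact hnot ⟨le_of_lt ht, not_lt.mp hcon⟩
  have hT : Tendsto f atTop (𝓝 0) := by
    refine tendsto_const_nhds.congr' ?_
    filter_upwards [eventually_ge_atTop R] with t ht using (hR t ht).symm
  have := integral_Ioi_of_hasDerivAt_of_tendsto' (a := (0:ℝ)) (f := f) (f' := deriv f)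
    (fun x _ => (hd x).hasDerivAt) hint hT
  rw [this]; ring

lemma ftc_swap {X : Type*} [MeasurableSpace X] {μ : Measure X} [SFinite μ] (W : X → ℝ)
    (Φ : ℝ → X → ℝ)
    (hint : Integrable (fun q : ℝ × X => W q.2 * deriv (fun s => Φ s q.2) q.1)
      (((volume : Measure ℝ).restrict (Ioi 0)).prod μ))
    (hd : ∀ p, Differentiable ℝ (fun s => Φ s p))
    (hc : ∀ p, Continuous (deriv (fun s => Φ s p)))
    (hz : ∀ p, ∃ R : ℝ, ∀ t, R ≤ t → Φ t p = 0) :
    (∫ t in Ioi (0:ℝ), ∫ p, W p * deriv (fun s => Φ s p) t ∂μ) + ∫ p, W p * Φ 0 p ∂μ = 0 := by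
  have hswap := integral_integral_swap (f := fun (t : ℝ) (p : X) => W p * deriv (fun s => Φ s p) t)
    (μ := (volume : Measure ℝ).restrict (Ioi 0)) (ν := μ) hint
  rw [hswap]
  have h1 : ∀ p, ∫ t in Ioi (0:ℝ), W p * deriv (fun s => Φ s p) t = - (W p * Φ 0 p) := by
    intro p
    obtain ⟨R, hR⟩ := hz p
    rw [integral_const_mul, ftc_one _ (hd p) (hc p) R hR]
    ring
  simp_rw [h1]
  rw [integral_neg]
  ring

variable {ρ T : ℝ} {u : R3}

lemma renorm_maxw (hρ : 0 < ρ) (hT : 0 < T) (β dβ : ℝ → ℝ) (hβ : IsRenorm β dβ)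
    (φ : ℝ → R3 → R3 → ℝ) (hφ : IsTest3 φ) :
    (∫ t in Ioi (0 : ℝ), ∫ p : R3 × R3, M p.2 * β (maxw ρ u T p.2 / M p.2) *
        (deriv (fun s => φ s p.1 p.2) t + fderiv ℝ (fun y => φ t y p.2) p.1 p.2) ∂muO)
      + (∫ p : R3 × R3, M p.2 * β (maxw ρ u T p.2 / M p.2) * φ 0 p.1 p.2 ∂muO) = 0 := by
  have hS : SFinite muO := by
    unfold muO
    have := isFiniteMeasure_muX
    infer_instance
  have hfin := isFiniteMeasure_muX
  set U : R3 → ℝ := fun v => M v * β (maxw ρ u T v / M v) with hU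
  have hβc : ContinuousOn β (Ici 0) := fun z hz => (hβ.deriv z hz).continuousWithinAt
  have hGc : Continuous fun v => maxw ρ u T v / M v :=
    (continuous_maxw ρ u T).div continuous_M fun v => (M_pos v).ne'
  have hUc : Continuous U := continuous_M.mul
    (hβc.comp_continuous hGc fun v => (div_pos (maxw_pos u hρ hT v) (M_pos v)).le)
  set Φ : ℝ × R3 × R3 → ℝ := fun q => φ q.1 q.2.1 q.2.2 with hΦ
  have hΦs : ContDiff ℝ ((⊤ : ℕ∞) : WithTop ℕ∞) Φ := hφ.smooth
  have hΦd : Differentiable ℝ Φ := hΦs.differentiable (by simp)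
  have hDc : Continuous (fderiv ℝ Φ) := hΦs.continuous_fderiv (by simp)
  have hA : ∀ t x v, HasDerivAt (fun s => φ s x v) (fderiv ℝ Φ (t, x, v) (1, 0, 0)) t := by
    intro t x v
    have h1 : HasDerivAt (fun s : ℝ => ((s, x, v) : ℝ × R3 × R3)) (1, 0, 0) t :=
      (hasDerivAt_id t).prodMk (hasDerivAt_const t (x, v))
    exact (hΦd (t, x, v)).hasFDerivAt.comp_hasDerivAt t h1
  have hB : ∀ t x v w, fderiv ℝ (fun y => φ t y v) x w = fderiv ℝ Φ (t, x, v) (0, w, 0) := by
    intro t x v w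
    have h1 : HasFDerivAt (fun y : R3 => ((t, y, v) : ℝ × R3 × R3))
        ((0 : R3 →L[ℝ] ℝ).prod ((ContinuousLinearMap.id ℝ R3).prod (0 : R3 →L[ℝ] R3))) x :=
      (hasFDerivAt_const t x).prodMk ((hasFDerivAt_id x).prodMk (hasFDerivAt_const v x))
    have h2 := ((hΦd (t, x, v)).hasFDerivAt.comp x h1)
    have h3 : fderiv ℝ (fun y => φ t y v) x = _ := h2.fderiv
    rw [h3]
    simp
  obtain ⟨R, hR⟩ := hφ.support
  have hAc : Continuous fun q : ℝ × R3 × R3 => deriv (fun s => φ s q.2.1 q.2.2) q.1 := by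
    have : (fun q : ℝ × R3 × R3 => deriv (fun s => φ s q.2.1 q.2.2) q.1) =
        fun q => fderiv ℝ Φ q (1, 0, 0) := by
      funext q
      exact (hA q.1 q.2.1 q.2.2).deriv
    rw [this]
    exact hDc.clm_apply continuous_const
  have hBc : Continuous fun q : ℝ × R3 × R3 =>
      fderiv ℝ (fun y => φ q.1 y q.2.2) q.2.1 q.2.2 := by
    have : (fun q : ℝ × R3 × R3 => fderiv ℝ (fun y => φ q.1 y q.2.2) q.2.1 q.2.2) =
        fun q => fderiv ℝ Φ q (0, q.2.2, 0) := by
      funext q
      exact hB q.1 q.2.1 q.2.2 q.2.2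
    rw [this]
    refine hDc.clm_apply ?_
    fun_prop
  have hAz : ∀ t x v, (R < t ∨ R < ‖v‖) → deriv (fun s => φ s x v) t = 0 := by
    intro t x v h
    rcases h with h | h
    · exact deriv_zero_of_large _ R (fun s hs => hR s x v (Or.inl hs)) t h
    · have : (fun s => φ s x v) = fun _ => 0 := by
        funext s
        exact hR s x v (Or.inr h.le)
      rw [this]; simp
  have hBz : ∀ t x v, (R < t ∨ R < ‖v‖) → fderiv ℝ (fun y => φ t y v) x v = 0 := by
    intro t x v h
    have : (fun y => φ t y v) = fun _ => 0 := by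
      funext y
      rcases h with h | h
      · exact hR t y v (Or.inl h.le)
      · exact hR t y v (Or.inr h.le)
    rw [this]; simp
  have hsplit : ∀ t, ∫ p : R3 × R3, U p.2 *
      (deriv (fun s => φ s p.1 p.2) t + fderiv ℝ (fun y => φ t y p.2) p.1 p.2) ∂muO =
      ∫ p : R3 × R3, U p.2 * deriv (fun s => φ s p.1 p.2) t ∂muO := by
    intro t
    have i1 : Integrable (fun p : R3 × R3 => U p.2 * deriv (fun s => φ s p.1 p.2) t) muO := by
      refine int_muO _ ?_ R ?_
      · refine (hUc.comp continuous_snd).mul ?_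
        exact hAc.comp (by fun_prop : Continuous fun p : R3 × R3 => ((t, p.1, p.2) : ℝ × R3 × R3))
      · intro p hp
        rw [hAz t p.1 p.2 (Or.inr hp), mul_zero]
    have i2 : Integrable (fun p : R3 × R3 => U p.2 * fderiv ℝ (fun y => φ t y p.2) p.1 p.2) muO := by
      refine int_muO _ ?_ R ?_
      · refine (hUc.comp continuous_snd).mul ?_
        exact hBc.comp (by fun_prop : Continuous fun p : R3 × R3 => ((t, p.1, p.2) : ℝ × R3 × R3))
      · intro p hp
        rw [hBz t p.1 p.2 (Or.inr hp), mul_zero]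
    simp_rw [mul_add]
    rw [integral_add i1 i2]
    have hzero : ∫ p : R3 × R3, U p.2 * fderiv ℝ (fun y => φ t y p.2) p.1 p.2 ∂muO = 0 := by
      unfold muO at i2 ⊢
      rw [integral_prod_symm _ i2]
      refine integral_eq_zero_of_ae (Eventually.of_forall fun v => ?_)
      simp only [Pi.zero_apply]
      rw [integral_const_mul, periodic_fderiv_integral, mul_zero]
      · have h1 : ContDiff ℝ ((⊤ : ℕ∞) : WithTop ℕ∞) (fun y : R3 => ((t, y, v) : ℝ × R3 × R3)) :=
          contDiff_const.prodMk (contDiff_id.prodMk contDiff_const)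
        exact (hΦs.comp h1).of_le (by simp)
      · intro x i
        exact hφ.periodic t x v i
    rw [hzero, add_zero]
  change (∫ t in Ioi (0 : ℝ), ∫ p : R3 × R3, U p.2 *
      (deriv (fun s => φ s p.1 p.2) t + fderiv ℝ (fun y => φ t y p.2) p.1 p.2) ∂muO)
      + (∫ p : R3 × R3, U p.2 * φ 0 p.1 p.2 ∂muO) = 0
  simp_rw [hsplit]
  refine ftc_swap (fun p : R3 × R3 => U p.2) (fun s p => φ s p.1 p.2) ?_ ?_ ?_ ?_
  · refine int_nu _ ?_ R ?_
    · exact (hUc.comp (by fun_prop)).mul hAc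
    · intro q hq
      rw [hAz q.1 q.2.1 q.2.2 hq, mul_zero]
  · intro p s
    exact (hA s p.1 p.2).differentiableAt
  · intro p
    have : deriv (fun s => φ s p.1 p.2) = fun t => fderiv ℝ Φ (t, p.1, p.2) (1, 0, 0) := by
      funext t
      exact (hA t p.1 p.2).deriv
    rw [this]
    refine (hDc.comp ?_).clm_apply continuous_const
    fun_prop
  · intro p
    exact ⟨R, fun t ht => hR t p.1 p.2 (Or.inl ht)⟩

lemma mass_maxw (φ : ℝ → R3 → ℝ) (hφ : IsTest2 φ) (m : ℝ) (j : R3) :
    (∫ t in Ioi (0 : ℝ), ∫ x, (m * deriv (fun s => φ s x) t + fderiv ℝ (φ t) x j) ∂muX)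
      + (∫ x, m * φ 0 x ∂muX) = 0 := by
  have hfin := isFiniteMeasure_muX
  set Φ : ℝ × R3 → ℝ := fun q => φ q.1 q.2 with hΦ
  have hΦs : ContDiff ℝ ((⊤ : ℕ∞) : WithTop ℕ∞) Φ := hφ.smooth
  have hΦd : Differentiable ℝ Φ := hΦs.differentiable (by simp)
  have hDc : Continuous (fderiv ℝ Φ) := hΦs.continuous_fderiv (by simp)
  have hA : ∀ t x, HasDerivAt (fun s => φ s x) (fderiv ℝ Φ (t, x) (1, 0)) t := by
    intro t x
    have h1 : HasDerivAt (fun s : ℝ => ((s, x) : ℝ × R3)) (1, 0) t :=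
      (hasDerivAt_id t).prodMk (hasDerivAt_const t x)
    exact (hΦd (t, x)).hasFDerivAt.comp_hasDerivAt t h1
  have hB : ∀ t x w, fderiv ℝ (φ t) x w = fderiv ℝ Φ (t, x) (0, w) := by
    intro t x w
    have h1 : HasFDerivAt (fun y : R3 => ((t, y) : ℝ × R3))
        ((0 : R3 →L[ℝ] ℝ).prod (ContinuousLinearMap.id ℝ R3)) x :=
      (hasFDerivAt_const t x).prodMk (hasFDerivAt_id x)
    have h2 := ((hΦd (t, x)).hasFDerivAt.comp x h1)
    have h3 : fderiv ℝ (φ t) x = _ := h2.fderiv
    rw [h3]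
    simp
  obtain ⟨R, hR⟩ := hφ.support
  have hAc : Continuous fun q : ℝ × R3 => deriv (fun s => φ s q.2) q.1 := by
    have : (fun q : ℝ × R3 => deriv (fun s => φ s q.2) q.1) =
        fun q => fderiv ℝ Φ q (1, 0) := by
      funext q
      exact (hA q.1 q.2).deriv
    rw [this]
    exact hDc.clm_apply continuous_const
  have hAz : ∀ t x, R < t → deriv (fun s => φ s x) t = 0 := fun t x h =>
    deriv_zero_of_large _ R (fun s hs => hR s x hs) t h
  have hsplit : ∀ t, ∫ x, (m * deriv (fun s => φ s x) t + fderiv ℝ (φ t) x j) ∂muX =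
      ∫ x, m * deriv (fun s => φ s x) t ∂muX := by
    intro t
    have i1 : Integrable (fun x => m * deriv (fun s => φ s x) t) muX := by
      refine int_muX _ (continuous_const.mul ?_)
      exact hAc.comp (by fun_prop : Continuous fun x : R3 => ((t, x) : ℝ × R3))
    have i2 : Integrable (fun x => fderiv ℝ (φ t) x j) muX := by
      refine int_muX _ ?_
      have : (fun x => fderiv ℝ (φ t) x j) = fun x => fderiv ℝ Φ (t, x) (0, j) := by
        funext x
        exact hB t x j
      rw [this]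
      refine (hDc.comp ?_).clm_apply continuous_const
      fun_prop
    rw [integral_add i1 i2, periodic_fderiv_integral, add_zero]
    · have h1 : ContDiff ℝ ((⊤ : ℕ∞) : WithTop ℕ∞) (fun y : R3 => ((t, y) : ℝ × R3)) :=
        contDiff_const.prodMk contDiff_id
      exact (hΦs.comp h1).of_le (by simp)
    · intro x i
      exact hφ.periodic t x i
  simp_rw [hsplit]
  refine ftc_swap (fun _ : R3 => m) φ ?_ ?_ ?_ ?_
  · refine int_nu2 _ (continuous_const.mul hAc) R ?_
    intro q hq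
    rw [hAz q.1 q.2 hq, mul_zero]
  · intro x s
    exact (hA s x).differentiableAt
  · intro x
    have : deriv (fun s => φ s x) = fun t => fderiv ℝ Φ (t, x) (1, 0) := by
      funext t
      exact (hA t x).deriv
    rw [this]
    refine (hDc.comp ?_).clm_apply continuous_const
    fun_prop
  · intro x
    exact ⟨R, fun t ht => hR t x ht⟩

/-- The stationary Maxwellian is a renormalized entropy solution. -/
theorem isSolution_maxw (hρ : 0 < ρ) (hT : 0 < T) :
    IsSolution (fun _ v => maxw ρ u T v) (fun _ _ v => maxw ρ u T v) where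
  meas := (continuous_maxw ρ u T).measurable.comp (measurable_snd.comp measurable_snd)
  nonneg := fun _ _ _ v => (maxw_pos u hρ hT v).le
  periodic := fun _ _ _ _ => rfl
  init := ae_of_all _ fun _ => rfl
  weakCont := fun _ _ _ => continuousOn_const
  bound := by
    intro R
    have := isFiniteMeasure_muX
    have hi := (integrable_big_maxw ρ u hρ hT).comp_snd muX
    refine ⟨_, fun t _ => (ofReal_integral_eq_lintegral_ofReal hi ?_).ge⟩
    refine Eventually.of_forall fun p => ?_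
    have := maxw_pos u hρ hT p.2
    simp only [Pi.zero_apply]
    positivity
  gainInt := by
    intro R
    simp_rw [show (fun v => maxw ρ u T v) = maxw ρ u T from rfl, Qplus_eq_Qminus]
    exact lossInt_maxw hρ hT R
  lossInt := fun R => lossInt_maxw hρ hT R
  renorm := by
    intro β dβ hβ φ hφ
    have h1 := renorm_maxw (u := u) hρ hT β dβ hβ φ hφ
    have h2 : ∀ (t : ℝ) (p : R3 × R3), dβ (maxw ρ u T p.2 / M p.2) *
        ((Qplus (maxw ρ u T) p.2).toReal - (Qminus (maxw ρ u T) p.2).toReal) * φ t p.1 p.2 = 0 := by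
      intro t p
      rw [Qplus_eq_Qminus]; simp
    simp only [h2, integral_zero, add_zero]
    exact h1
  massBalance := by
    intro φ hφ
    exact mass_maxw φ hφ _ _
  momentum := fun _ _ _ _ => rfl
  energy := fun _ _ => le_rfl
  entropy := by
    intro t _
    simp [Dis_maxw]

end Vale.Agent.Lib.P140
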