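import Vale.Agent.Lib.P140.Mass

open MeasureTheory Set Filter Topology
open scoped ENNReal ContDiff

noncomputable section

namespace Vale.Agent.Lib.P140

lemma moments (k : R3 × R3 → ℝ) (h1 : Integrable k muO)
    (h2 : Integrable (fun p => ‖p.2‖ ^ 2 * k p) muO) (h3 : Integrable (fun p => k p • p.2) muO)
    (c A B : ℝ) (u : R3) :
    Integrable (fun p => k p * (c + A * ‖p.2‖ ^ 2 + B * inner ℝ u p.2)) muO ∧
    ∫ p, k p * (c + A * ‖p.2‖ ^ 2 + B * inner ℝ u p.2) ∂muO =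
      c * ∫ p, k p ∂muO + A * ∫ p, ‖p.2‖ ^ 2 * k p ∂muO + B * inner ℝ u (∫ p, k p • p.2 ∂muO) := by
  have h4 : Integrable (fun p => k p * inner ℝ u p.2) muO := by
    refine (h3.const_inner u).congr (Eventually.of_forall fun p => ?_)
    simp [inner_smul_right]
  have h5 : ∫ p, k p * inner ℝ u p.2 ∂muO = inner ℝ u (∫ p, k p • p.2 ∂muO) := by
    rw [← integral_inner h3 u]
    refine integral_congr_ae (Eventually.of_forall fun p => ?_)
    simp [inner_smul_right]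
  have hfun : (fun p : R3 × R3 => k p * (c + A * ‖p.2‖ ^ 2 + B * inner ℝ u p.2)) =
      fun p => c * k p + A * (‖p.2‖ ^ 2 * k p) + B * (k p * inner ℝ u p.2) := by
    funext p; ring
  rw [hfun]
  have i1 := h1.const_mul c
  have i2 := h2.const_mul A
  have i3 := h4.const_mul B
  have i12 : Integrable (fun p : R3 × R3 => c * k p + A * (‖p.2‖ ^ 2 * k p)) muO := i1.add i2
  have i123 : Integrable
      (fun p : R3 × R3 => c * k p + A * (‖p.2‖ ^ 2 * k p) + B * (k p * inner ℝ u p.2)) muO :=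
    i12.add i3
  refine ⟨i123, ?_⟩
  rw [integral_add i12 i3, integral_add i1 i2, integral_const_mul, integral_const_mul,
    integral_const_mul, h5]

lemma integrable_maxw (ρ : ℝ) (u : R3) {T : ℝ} (hT : 0 < T) :
    Integrable (maxw ρ u T) (volume : Measure R3) := by
  have hb : (0:ℝ) < 1 / (2 * T) := by positivity
  have h := GaussianFourier.integrable_cexp_neg_mul_sq_norm_add (V := R3)
    (b := ((1 / (2 * T) : ℝ) : ℂ)) (by simpa using hb) (0 : ℂ) (0 : R3)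
  have h2 := (h.norm.const_mul (ρ * (2 * Real.pi * T) ^ (-(3 / 2) : ℝ))).comp_sub_right u
  refine h2.congr (Eventually.of_forall fun v => ?_)
  simp only [maxw]
  congr 1
  rw [Complex.norm_exp]
  congr 1
  simp only [zero_mul, add_zero, Complex.mul_re, Complex.neg_re, Complex.ofReal_re,
    Complex.neg_im, Complex.ofReal_im]
  rw [← Complex.ofReal_pow, Complex.ofReal_re, Complex.ofReal_im]
  field_simp
  simp

lemma integrable_maxw_snd (ρ : ℝ) (u : R3) {T : ℝ} (hT : 0 < T) :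
    Integrable (fun p : R3 × R3 => maxw ρ u T p.2) muO := by
  have := isFiniteMeasure_muX
  exact (integrable_maxw ρ u hT).comp_snd muX

section

variable {F0 : R3 → R3 → ℝ} {F : ℝ → R3 → R3 → ℝ}

lemma log_M (v : R3) : Real.log (M v) = Real.log ((2 * Real.pi) ^ (-(3 / 2) : ℝ)) - ‖v‖ ^ 2 / 2 := by
  have h2pi : (0:ℝ) < 2 * Real.pi := by positivity
  have h2 : (0:ℝ) < (2 * Real.pi) ^ (-(3 / 2) : ℝ) := by positivity
  unfold M
  rw [Real.log_mul h2.ne' (Real.exp_pos _).ne', Real.log_exp]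
  ring

lemma IsSolution.int_hhM (h : IsSolution F0 F) {t : ℝ} (ht : 0 ≤ t) :
    Integrable (fun p : R3 × R3 => hh (F t p.1 p.2) (M p.2)) muO := by
  have hm := h.meas_at t
  have hlogint : Integrable (fun p : R3 × R3 => F t p.1 p.2 * Real.log (F t p.1 p.2)) muO := by
    refine (h.int_big ht).mono' (hm.mul (Real.measurable_log.comp hm)).aestronglyMeasurable
      (Eventually.of_forall fun p => ?_)
    have h0 := h.nonneg t ht p.1 p.2
    rw [norm_mul, Real.norm_eq_abs, Real.norm_eq_abs, abs_of_nonneg h0]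
    refine mul_le_mul_of_nonneg_left ?_ h0
    have : (0:ℝ) ≤ ‖p.2‖ ^ 2 := by positivity
    linarith
  have i1 := hlogint
  have i2 := (h.int_F ht).const_mul (Real.log ((2 * Real.pi) ^ (-(3 / 2) : ℝ)))
  have i3 := (h.int_E ht).const_mul (1 / 2 : ℝ)
  have i4 := h.int_F ht
  have i5 := integrable_M_snd
  refine (((((i1.sub i2).add i3).sub i4)).add i5).congr (Eventually.of_forall fun p => ?_)
  have h0 := h.nonneg t ht p.1 p.2
  simp only [Pi.add_apply, Pi.sub_apply]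
  unfold hh
  rcases h0.eq_or_lt with h00 | h0'
  · rw [← h00]; simp
  · rw [Real.log_div h0'.ne' (M_pos _).ne', log_M]
    ring

lemma IsSolution.HM_eq (h : IsSolution F0 F) {t : ℝ} (ht : 0 ≤ t) :
    HM (F t) = ENNReal.ofReal (∫ p, hh (F t p.1 p.2) (M p.2) ∂muO) := by
  refine (ofReal_integral_eq_lintegral_ofReal (h.int_hhM ht) ?_).symm
  exact Eventually.of_forall fun p => hh_nonneg (h.nonneg t ht p.1 p.2) (M_pos _)

lemma IsSolution.HM_datum (h : IsSolution F0 F) : HM F0 = HM (F 0) := by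
  unfold HM
  refine lintegral_congr_ae (h.init.mono fun p hp => ?_)
  simp only [hp]

lemma IsSolution.hhM_le (h : IsSolution F0 F) {t : ℝ} (ht : 0 ≤ t) :
    ∫ p, hh (F t p.1 p.2) (M p.2) ∂muO ≤ ∫ p, hh (F 0 p.1 p.2) (M p.2) ∂muO := by
  have h1 : HM (F t) ≤ HM (F 0) := by
    rw [← h.HM_datum]
    exact le_trans le_self_add (h.entropy t ht)
  rw [h.HM_eq ht, h.HM_eq le_rfl] at h1
  refine (ENNReal.ofReal_le_ofReal_iff ?_).1 h1
  refine integral_nonneg fun p => ?_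
  exact hh_nonneg (h.nonneg 0 le_rfl p.1 p.2) (M_pos _)

variable {ρ T : ℝ} {u : R3}

/-- Integrability of the relative entropy with respect to a Maxwellian, at all times, and the
identity expressing it through the relative entropy with respect to `M` and moments. -/
lemma IsSolution.hh_maxw (h : IsSolution F0 F) (hρ : 0 < ρ) (hT : 0 < T) {t : ℝ} (ht : 0 ≤ t) :
    Integrable (fun p : R3 × R3 => hh (F t p.1 p.2) (maxw ρ u T p.2)) muO ∧
    ∫ p, hh (F t p.1 p.2) (maxw ρ u T p.2) ∂muO =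
      ∫ p, hh (F t p.1 p.2) (M p.2) ∂muO
        - ((Real.log (ρ * (2 * Real.pi * T) ^ (-(3 / 2) : ℝ)) -
            Real.log ((2 * Real.pi) ^ (-(3 / 2) : ℝ)) - ‖u‖ ^ 2 / (2 * T)) * mass F t
           + ((T - 1) / (2 * T)) * ∫ p, ‖p.2‖ ^ 2 * F t p.1 p.2 ∂muO
           + (1 / T) * inner ℝ u (∫ p, F t p.1 p.2 • p.2 ∂muO))
        - ∫ p, M p.2 ∂muO + ∫ p, maxw ρ u T p.2 ∂muO := by
  set c : ℝ := Real.log (ρ * (2 * Real.pi * T) ^ (-(3 / 2) : ℝ)) -
    Real.log ((2 * Real.pi) ^ (-(3 / 2) : ℝ)) - ‖u‖ ^ 2 / (2 * T) with hc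
  set A : ℝ := (T - 1) / (2 * T) with hA
  set B : ℝ := 1 / T with hB
  have hlog : ∀ v : R3, Real.log (maxw ρ u T v / M v) = c + A * ‖v‖ ^ 2 + B * inner ℝ u v :=
    fun v => log_ratio u hρ hT v
  obtain ⟨fQ_int, fQ_eq⟩ := moments (fun p : R3 × R3 => F t p.1 p.2) (h.int_F ht) (h.int_E ht)
    (h.int_P ht) c A B u
  have hg1 := integrable_maxw_snd ρ u hT
  have hIt_int := h.int_hhM ht
  have hid : ∀ p : R3 × R3, hh (F t p.1 p.2) (maxw ρ u T p.2) =
      hh (F t p.1 p.2) (M p.2) - F t p.1 p.2 * (c + A * ‖p.2‖ ^ 2 + B * inner ℝ u p.2)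
        - M p.2 + maxw ρ u T p.2 := by
    intro p
    rw [hh_shift (h.nonneg t ht p.1 p.2) (M_pos _) (maxw_pos u hρ hT _), hlog p.2]
  have s1 : Integrable (fun p : R3 × R3 => hh (F t p.1 p.2) (M p.2)
      - F t p.1 p.2 * (c + A * ‖p.2‖ ^ 2 + B * inner ℝ u p.2)) muO := hIt_int.sub fQ_int
  have s2 : Integrable (fun p : R3 × R3 => hh (F t p.1 p.2) (M p.2)
      - F t p.1 p.2 * (c + A * ‖p.2‖ ^ 2 + B * inner ℝ u p.2) - M p.2) muO :=
    s1.sub integrable_M_snd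
  have s3 : Integrable (fun p : R3 × R3 => hh (F t p.1 p.2) (M p.2)
      - F t p.1 p.2 * (c + A * ‖p.2‖ ^ 2 + B * inner ℝ u p.2) - M p.2 + maxw ρ u T p.2) muO :=
    s2.add hg1
  refine ⟨s3.congr (Eventually.of_forall fun p => (hid p).symm), ?_⟩
  simp_rw [hid]
  rw [integral_add s2 hg1, integral_sub s1 integrable_M_snd, integral_sub hIt_int fQ_int, fQ_eq]
  rfl

lemma IsSolution.integral_hh_datum (h : IsSolution F0 F) (N : R3 → ℝ) :
    ∫ p, hh (F0 p.1 p.2) (N p.2) ∂muO = ∫ p, hh (F 0 p.1 p.2) (N p.2) ∂muO :=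
  integral_congr_ae (h.init.mono fun p hp => by simp only [hp])

lemma IsSolution.integral_E_datum (h : IsSolution F0 F) :
    ∫ p, ‖p.2‖ ^ 2 * F0 p.1 p.2 ∂muO = ∫ p, ‖p.2‖ ^ 2 * F 0 p.1 p.2 ∂muO :=
  integral_congr_ae (h.init.mono fun p hp => by simp only [hp])

/-- The relative entropy inequality with respect to an arbitrary global Maxwellian. -/
theorem relEnt_general (h : IsSolution F0 F) (hρ : 0 < ρ) (hT : 0 < T) {t : ℝ} (ht : 0 ≤ t) :
    ∫ p, hh (F t p.1 p.2) (maxw ρ u T p.2) ∂muO ≤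
      ∫ p, hh (F0 p.1 p.2) (maxw ρ u T p.2) ∂muO +
      ((T - 1) / (2 * T)) *
        (∫ p, ‖p.2‖ ^ 2 * F0 p.1 p.2 ∂muO - ∫ p, ‖p.2‖ ^ 2 * F t p.1 p.2 ∂muO) := by
  rw [h.integral_hh_datum, h.integral_E_datum, (h.hh_maxw (u := u) hρ hT ht).2,
    (h.hh_maxw (u := u) hρ hT (t := 0) le_rfl).2, h.mass_const ht, h.momentum t ht 0 le_rfl]
  have := h.hhM_le ht
  nlinarith [this]

/-- With respect to a Maxwellian of temperature at most one the relative entropy does not increase. -/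
theorem relEnt_mono (h : IsSolution F0 F) (hρ : 0 < ρ) (hT : 0 < T) (hT1 : T ≤ 1) {t : ℝ}
    (ht : 0 ≤ t) :
    ∫ p, hh (F t p.1 p.2) (maxw ρ u T p.2) ∂muO ≤ ∫ p, hh (F0 p.1 p.2) (maxw ρ u T p.2) ∂muO := by
  have h1 : (T - 1) / (2 * T) ≤ 0 := div_nonpos_of_nonpos_of_nonneg (by linarith) (by positivity)
  have h2 : 0 ≤ ∫ p, ‖p.2‖ ^ 2 * F0 p.1 p.2 ∂muO - ∫ p, ‖p.2‖ ^ 2 * F t p.1 p.2 ∂muO :=
    sub_nonneg.2 (h.energy t ht)
  have h3 := mul_nonpos_of_nonpos_of_nonneg h1 h2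
  have h4 := relEnt_general (u := u) h hρ hT ht
  linarith

lemma hh_self (a : ℝ) (ha : 0 < a) : hh a a = 0 := by
  unfold hh
  rw [div_self ha.ne', Real.log_one]; ring

/-- Equality with a Maxwellian datum as soon as the bound of the entropy inequality is nonpositive. -/
theorem eq_of_bound (hρ : 0 < ρ) (hT : 0 < T)
    (h : IsSolution (fun _ v => maxw ρ u T v) F) {t : ℝ} (ht : 0 ≤ t)
    (hneg : ((T - 1) / (2 * T)) *
        (∫ p, ‖p.2‖ ^ 2 * maxw ρ u T p.2 ∂muO - ∫ p, ‖p.2‖ ^ 2 * F t p.1 p.2 ∂muO) ≤ 0) :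
    ∀ᵐ p ∂muO, F t p.1 p.2 = maxw ρ u T p.2 := by
  have hle := relEnt_general (u := u) h hρ hT ht
  have hint := (h.hh_maxw (u := u) hρ hT ht).1
  have hself : ∫ p : R3 × R3, hh (maxw ρ u T p.2) (maxw ρ u T p.2) ∂muO = 0 := by
    have : ∀ p : R3 × R3, hh (maxw ρ u T p.2) (maxw ρ u T p.2) = 0 :=
      fun p => hh_self _ (maxw_pos u hρ hT _)
    simp [this]
  simp only [hself, zero_add] at hle
  have hnn : 0 ≤ᵐ[muO] (fun p : R3 × R3 => hh (F t p.1 p.2) (maxw ρ u T p.2)) :=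
    Eventually.of_forall fun p =>
      hh_nonneg (h.nonneg t ht p.1 p.2) (maxw_pos u hρ hT p.2)
  have hzero : ∫ p, hh (F t p.1 p.2) (maxw ρ u T p.2) ∂muO = 0 :=
    le_antisymm (hle.trans hneg) (integral_nonneg_of_ae hnn)
  have hae := (integral_eq_zero_iff_of_nonneg_ae hnn hint).1 hzero
  filter_upwards [hae] with p hp
  exact hh_eq_zero (h.nonneg t ht p.1 p.2) (maxw_pos u hρ hT p.2) hp

/-- At temperature at most one the solution is the Maxwellian. -/
theorem eq_of_temp_le_one (hρ : 0 < ρ) (hT : 0 < T) (hT1 : T ≤ 1)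
    (h : IsSolution (fun _ v => maxw ρ u T v) F) {t : ℝ} (ht : 0 ≤ t) :
    ∀ᵐ p ∂muO, F t p.1 p.2 = maxw ρ u T p.2 := by
  refine eq_of_bound hρ hT h ht ?_
  have h1 : (T - 1) / (2 * T) ≤ 0 := div_nonpos_of_nonpos_of_nonneg (by linarith) (by positivity)
  have h2 : 0 ≤ ∫ p, ‖p.2‖ ^ 2 * maxw ρ u T p.2 ∂muO - ∫ p, ‖p.2‖ ^ 2 * F t p.1 p.2 ∂muO :=
    sub_nonneg.2 (h.energy t ht)
  exact mul_nonpos_of_nonpos_of_nonneg h1 h2

/-- At any temperature a solution with no energy loss at time `t` is the Maxwellian at time `t`. -/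
theorem eq_of_energy (hρ : 0 < ρ) (hT : 0 < T)
    (h : IsSolution (fun _ v => maxw ρ u T v) F) {t : ℝ} (ht : 0 ≤ t)
    (hE : ∫ p, ‖p.2‖ ^ 2 * F t p.1 p.2 ∂muO = ∫ p, ‖p.2‖ ^ 2 * maxw ρ u T p.2 ∂muO) :
    ∀ᵐ p ∂muO, F t p.1 p.2 = maxw ρ u T p.2 := by
  refine eq_of_bound hρ hT h ht ?_
  rw [hE]; simp

/-! ### Quantitative form -/

lemma sqrt_sub_sq_le {a b : ℝ} (ha : 0 ≤ a) (hb : 0 < b) :
    (Real.sqrt a - Real.sqrt b) ^ 2 ≤ hh a b := by
  unfold hh
  have hsa := Real.sq_sqrt ha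
  have hsb := Real.sq_sqrt hb.le
  rcases ha.eq_or_lt with rfl | ha'
  · simp; linarith
  · set x := Real.sqrt a with hx
    set y := Real.sqrt b with hy
    have hxpos : 0 < x := Real.sqrt_pos.2 ha'
    have hypos : 0 < y := Real.sqrt_pos.2 hb
    have hlog : Real.log (a / b) = - (2 * Real.log (y / x)) := by
      have h1 : a / b = ((y / x) ^ 2)⁻¹ := by
        rw [← hsa, ← hsb]; field_simp
      rw [h1, Real.log_inv, Real.log_pow]
      push_cast
      ring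
    have h2 := Real.log_le_sub_one_of_pos (div_pos hypos hxpos)
    have h3 : a * (y / x - 1) = x * y - a := by
      rw [← hsa]; field_simp
    rw [hlog]
    nlinarith [mul_le_mul_of_nonneg_left h2 ha'.le]

lemma lam_abs_le {a b l : ℝ} (ha : 0 ≤ a) (hb : 0 < b) :
    l * |a - b| ≤ (l ^ 2 / 2) * hh a b + (a + b) := by
  have hsa := Real.sq_sqrt ha
  have hsb := Real.sq_sqrt hb.le
  have h1 := sqrt_sub_sq_le ha hb
  set x := Real.sqrt a with hx
  set y := Real.sqrt b with hy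
  have hx0 : 0 ≤ x := Real.sqrt_nonneg _
  have hy0 : 0 ≤ y := Real.sqrt_nonneg _
  have h2 : a - b = (x - y) * (x + y) := by rw [← hsa, ← hsb]; ring
  have h3 : |a - b| = |x - y| * (x + y) := by
    rw [h2, abs_mul, abs_of_nonneg (by positivity : 0 ≤ x + y)]
  rw [h3]
  have h4 : (l ^ 2 / 2) * (x - y) ^ 2 ≤ (l ^ 2 / 2) * hh a b :=
    mul_le_mul_of_nonneg_left h1 (by positivity)
  have h5 : |x - y| ^ 2 = (x - y) ^ 2 := sq_abs _
  nlinarith [sq_nonneg (l * |x - y| - (x + y)), sq_nonneg (x - y)]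

/-- A Pinsker type inequality. -/
lemma pinsker {f g : R3 × R3 → ℝ} (hf : Integrable f muO) (hg : Integrable g muO)
    (hf0 : ∀ p, 0 ≤ f p) (hg0 : ∀ p, 0 < g p)
    (hi : Integrable (fun p => hh (f p) (g p)) muO) :
    (∫ p, |f p - g p| ∂muO) ^ 2 ≤
      2 * (∫ p, hh (f p) (g p) ∂muO) * (∫ p, f p ∂muO + ∫ p, g p ∂muO) := by
  set X := ∫ p, |f p - g p| ∂muO with hX
  set H := ∫ p, hh (f p) (g p) ∂muO with hH
  set S := ∫ p, f p ∂muO + ∫ p, g p ∂muO with hS
  have hX0 : 0 ≤ X := integral_nonneg fun p => abs_nonneg _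
  have hH0 : 0 ≤ H := integral_nonneg fun p => hh_nonneg (hf0 p) (hg0 p)
  have hS0 : 0 ≤ S := add_nonneg (integral_nonneg hf0) (integral_nonneg fun p => (hg0 p).le)
  have key : ∀ l : ℝ, l * X ≤ (l ^ 2 / 2) * H + S := by
    intro l
    have habs : Integrable (fun p => |f p - g p|) muO := (hf.sub hg).abs
    have h1 : l * X = ∫ p, l * |f p - g p| ∂muO := (integral_const_mul _ _).symm
    have i1 : Integrable (fun p => (l ^ 2 / 2) * hh (f p) (g p)) muO := hi.const_mul _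
    have i2 : Integrable (fun p => f p + g p) muO := hf.add hg
    have h2 : (l ^ 2 / 2) * H + S =
        ∫ p, ((l ^ 2 / 2) * hh (f p) (g p) + (f p + g p)) ∂muO := by
      rw [integral_add i1 i2, integral_const_mul, integral_add hf hg]
    rw [h1, h2]
    exact integral_mono (habs.const_mul l) (i1.add i2) fun p => lam_abs_le (hf0 p) (hg0 p)
  rcases hH0.eq_or_lt with hH00 | hHpos
  · have hX00 : X = 0 := by
      by_contra hne
      have hXpos : 0 < X := lt_of_le_of_ne hX0 (Ne.symm hne)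
      have := key ((S + 1) / X)
      rw [← hH00] at this
      have h3 : (S + 1) / X * X = S + 1 := by field_simp
      rw [h3] at this
      linarith
    rw [hX00, ← hH00]; simp
  · have := key (X / H)
    have h3 : X / H * X = X ^ 2 / H := by ring
    have h4 : (X / H) ^ 2 / 2 * H = X ^ 2 / (2 * H) := by field_simp
    rw [h3, h4] at this
    have h5 : X ^ 2 / H - X ^ 2 / (2 * H) = X ^ 2 / (2 * H) := by field_simp; ring
    have h6 : X ^ 2 / (2 * H) ≤ S := by linarith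
    rw [div_le_iff₀ (by positivity)] at h6
    nlinarith

/-- Two solutions with the same datum are close in `L¹` if the datum has small relative entropy with
respect to a Maxwellian of temperature at most one. -/
theorem two_solutions {F₁ F₂ : ℝ → R3 → R3 → ℝ} (h₁ : IsSolution F0 F₁) (h₂ : IsSolution F0 F₂)
    (hρ : 0 < ρ) (hT : 0 < T) (hT1 : T ≤ 1) {t : ℝ} (ht : 0 ≤ t) :
    (∫ p, |F₁ t p.1 p.2 - F₂ t p.1 p.2| ∂muO) ^ 2 ≤
      8 * (∫ p, hh (F0 p.1 p.2) (maxw ρ u T p.2) ∂muO) *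
        (∫ p, F0 p.1 p.2 ∂muO + ∫ p, maxw ρ u T p.2 ∂muO) := by
  set H := ∫ p, hh (F0 p.1 p.2) (maxw ρ u T p.2) ∂muO with hH
  set S := ∫ p, F0 p.1 p.2 ∂muO + ∫ p, maxw ρ u T p.2 ∂muO with hS
  have hgint := integrable_maxw_snd ρ u hT
  have hgpos : ∀ p : R3 × R3, 0 < maxw ρ u T p.2 := fun p => maxw_pos u hρ hT _
  have side : ∀ {G : ℝ → R3 → R3 → ℝ}, IsSolution F0 G →
      (∫ p, |G t p.1 p.2 - maxw ρ u T p.2| ∂muO) ^ 2 ≤ 2 * H * S := by
    intro G hG
    have h1 := pinsker (hG.int_F ht) hgint (fun p => hG.nonneg t ht p.1 p.2) hgpos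
      (hG.hh_maxw hρ hT ht).1
    have hm : ∫ p, G t p.1 p.2 ∂muO = ∫ p, F0 p.1 p.2 ∂muO := by
      rw [hG.integral_F0]; exact hG.mass_const ht
    rw [hm] at h1
    have h2 := relEnt_mono (u := u) hG hρ hT hT1 ht
    have hS0 : 0 ≤ S := add_nonneg
      (by rw [← hm]; exact integral_nonneg fun p => hG.nonneg t ht p.1 p.2)
      (integral_nonneg fun p => (hgpos p).le)
    calc _ ≤ _ := h1
      _ ≤ 2 * H * S := by
        apply mul_le_mul_of_nonneg_right _ hS0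
        linarith
  have hA := side h₁
  have hB := side h₂
  set x := ∫ p, |F₁ t p.1 p.2 - maxw ρ u T p.2| ∂muO with hx
  set y := ∫ p, |F₂ t p.1 p.2 - maxw ρ u T p.2| ∂muO with hy
  have htri : ∫ p, |F₁ t p.1 p.2 - F₂ t p.1 p.2| ∂muO ≤ x + y := by
    have i1 : Integrable (fun p : R3 × R3 => |F₁ t p.1 p.2 - maxw ρ u T p.2|) muO :=
      ((h₁.int_F ht).sub hgint).abs
    have i2 : Integrable (fun p : R3 × R3 => |F₂ t p.1 p.2 - maxw ρ u T p.2|) muO :=
      ((h₂.int_F ht).sub hgint).abs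
    have i3 : Integrable (fun p : R3 × R3 => |F₁ t p.1 p.2 - F₂ t p.1 p.2|) muO :=
      ((h₁.int_F ht).sub (h₂.int_F ht)).abs
    rw [hx, hy, ← integral_add i1 i2]
    refine integral_mono i3 (i1.add i2) fun p => ?_
    have e := abs_sub_le (F₁ t p.1 p.2) (maxw ρ u T p.2) (F₂ t p.1 p.2)
    rw [abs_sub_comm (maxw ρ u T p.2)] at e
    exact e
  have hl0 : 0 ≤ ∫ p, |F₁ t p.1 p.2 - F₂ t p.1 p.2| ∂muO := integral_nonneg fun p => abs_nonneg _
  have hx0 : 0 ≤ x := integral_nonneg fun p => abs_nonneg _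
  have hy0 : 0 ≤ y := integral_nonneg fun p => abs_nonneg _
  have h3 : (∫ p, |F₁ t p.1 p.2 - F₂ t p.1 p.2| ∂muO) ^ 2 ≤ (x + y) ^ 2 := by
    exact pow_le_pow_left₀ hl0 htri 2
  nlinarith [sq_nonneg (x - y)]

end

end Vale.Agent.Lib.P140
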