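import Vale.Agent.Lib.P140.Basic

open MeasureTheory Set Filter Topology
open scoped ENNReal ContDiff

noncomputable section

namespace Vale.Agent.Lib.P140

variable {F0 : R3 → R3 → ℝ} {F : ℝ → R3 → R3 → ℝ}

/-- The mass. -/
def mass (F : ℝ → R3 → R3 → ℝ) (t : ℝ) : ℝ := ∫ p, F t p.1 p.2 ∂muO

lemma IsSolution.mass_cont (h : IsSolution F0 F) : ContinuousOn (mass F) (Ici 0) := by
  have := h.weakCont (fun _ => 1) measurable_const ⟨1, fun _ => by simp⟩
  have h2 : ContinuousOn (fun t => ∫ p, F t p.1 p.2 ∂muO) (Ici 0) := by simpa using this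
  exact h2

lemma IsSolution.int_F0 (h : IsSolution F0 F) :
    Integrable (fun p : R3 × R3 => F0 p.1 p.2) muO :=
  (h.int_F le_rfl).congr h.init

lemma IsSolution.integral_F0 (h : IsSolution F0 F) :
    ∫ p, F0 p.1 p.2 ∂muO = mass F 0 :=
  (integral_congr_ae h.init).symm

/-- Mass balance tested with a function of time only. -/
lemma IsSolution.mass_test (h : IsSolution F0 F) (χ : ℝ → ℝ) (hχ : ContDiff ℝ ∞ χ)
    (R : ℝ) (hR : ∀ t, R ≤ t → χ t = 0) :
    (∫ t in Ioi (0 : ℝ), mass F t * deriv χ t) + mass F 0 * χ 0 = 0 := by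
  have := isFiniteMeasure_muX
  have hT : IsTest2 (fun s _ => χ s) := by
    refine ⟨hχ.comp contDiff_fst, fun _ _ _ => rfl, ⟨R, fun t _ ht => hR t ht⟩⟩
  have hb := h.massBalance _ hT
  have h1 : ∀ t ∈ Ioi (0 : ℝ), (∫ x, ((∫ v, F t x v) * deriv (fun s => χ s) t +
        fderiv ℝ (fun _ : R3 => χ t) x (∫ v, F t x v • v)) ∂muX) = mass F t * deriv χ t := by
    intro t ht
    have ht0 : (0:ℝ) ≤ t := le_of_lt ht
    simp only [fderiv_fun_const, Pi.zero_apply, zero_apply, add_zero]
    rw [integral_mul_const]
    congr 1
    unfold mass muO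
    rw [integral_prod _ (h.int_F ht0)]
  have h2 : (∫ x, (∫ v, F0 x v) * χ 0 ∂muX) = mass F 0 * χ 0 := by
    rw [integral_mul_const, ← h.integral_F0]
    congr 1
    unfold muO
    rw [integral_prod _ h.int_F0]
  rw [setIntegral_congr_fun measurableSet_Ioi h1, h2] at hb
  exact hb

/-- The mass is constant in time. -/
lemma IsSolution.mass_const (h : IsSolution F0 F) {t : ℝ} (ht : 0 ≤ t) : mass F t = mass F 0 := by
  have hcont := h.mass_cont
  set n : ℝ → ℝ := fun s => mass F s - mass F 0 with hn
  have hncont : ContinuousOn n (Ioi 0) :=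
    (hcont.mono Ioi_subset_Ici_self).sub continuousOn_const
  have hloc : LocallyIntegrableOn n (Ioi 0) (volume : Measure ℝ) :=
    hncont.locallyIntegrableOn measurableSet_Ioi
  have key : ∀ g : ℝ → ℝ, ContDiff ℝ ∞ g → HasCompactSupport g → tsupport g ⊆ Ioi 0 →
      ∫ s, g s • n s = 0 := by
    intro g hg hgc hgs
    have hgcont : Continuous g := hg.continuous
    obtain ⟨R0, hR0⟩ := hgc.isCompact.isBounded.subset_closedBall (0:ℝ)
    set R : ℝ := max R0 0 + 1 with hRdef
    have hRpos : 0 < R := by
      have := le_max_right R0 0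
      linarith
    have hgR : ∀ s, R ≤ s → g s = 0 := by
      intro s hs
      by_contra hne
      have hmem : s ∈ tsupport g := subset_tsupport g hne
      have := hR0 hmem
      rw [mem_closedBall_zero_iff, Real.norm_eq_abs] at this
      have h1 := le_abs_self s
      have h2 := le_max_left R0 0
      linarith
    -- the primitive
    set χ : ℝ → ℝ := fun s => ∫ r in R..s, g r with hχdef
    have hχd : ∀ s, HasDerivAt χ (g s) s := fun s =>
      (hgcont.integral_hasStrictDerivAt R s).hasDerivAt
    have hχderiv : deriv χ = g := funext fun s => (hχd s).deriv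
    have hχsmooth : ContDiff ℝ ∞ χ := by
      rw [contDiff_infty_iff_deriv]
      refine ⟨fun s => (hχd s).differentiableAt, ?_⟩
      rw [hχderiv]; exact hg
    have hχR : ∀ s, R ≤ s → χ s = 0 := by
      intro s hs
      simp only [hχdef]
      rw [intervalIntegral.integral_of_le hs]
      refine setIntegral_eq_zero_of_forall_eq_zero fun r hr => ?_
      exact hgR r hr.1.le
    have htest := h.mass_test χ hχsmooth R hχR
    rw [hχderiv] at htest
    -- the value at zero
    have hχ0 : χ 0 = - ∫ s in Ioi (0:ℝ), g s := by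
      simp only [hχdef]
      rw [intervalIntegral.integral_symm, intervalIntegral.integral_of_le hRpos.le]
      congr 1
      symm
      apply setIntegral_eq_of_subset_of_forall_sdiff_eq_zero measurableSet_Ioi
      · exact Ioc_subset_Ioi_self
      · intro x hx
        apply hgR
        by_contra hlt
        exact hx.2 ⟨hx.1, (not_le.mp hlt).le⟩
    rw [hχ0] at htest
    -- integrability
    have hgint : Integrable g := hgcont.integrable_of_hasCompactSupport hgc
    have hmgint : IntegrableOn (fun s => mass F s * g s) (Ioi 0) := by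
      have hK : IntegrableOn (fun s => mass F s * g s) (tsupport g) := by
        apply ContinuousOn.integrableOn_compact hgc.isCompact
        apply ContinuousOn.mul
        · exact hcont.mono (hgs.trans Ioi_subset_Ici_self)
        · exact hgcont.continuousOn
      refine hK.of_forall_sdiff_eq_zero measurableSet_Ioi ?_
      intro x hx
      have : g x = 0 := image_eq_zero_of_notMem_tsupport hx.2
      simp [this]
    have hzero : ∀ x, x ∉ Ioi (0:ℝ) → g x • n x = 0 := by
      intro x hx
      have : g x = 0 := image_eq_zero_of_notMem_tsupport (fun hmem => hx (hgs hmem))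
      simp [this]
    rw [← setIntegral_eq_integral_of_forall_compl_eq_zero hzero]
    have heq : ∀ s ∈ Ioi (0:ℝ), g s • n s = mass F s * g s - mass F 0 * g s := by
      intro s _
      simp only [hn, smul_eq_mul]; ring
    rw [setIntegral_congr_fun measurableSet_Ioi heq,
      integral_sub hmgint (hgint.integrableOn.const_mul _), integral_const_mul]
    linarith
  have hae := isOpen_Ioi.ae_eq_zero_of_integral_contDiff_smul_eq_zero hloc key
  have hae2 : n =ᵐ[volume.restrict (Ioi (0:ℝ))] (fun _ => 0) := by
    rw [EventuallyEq, ae_restrict_iff' measurableSet_Ioi]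
    exact hae
  have heqon := Measure.eqOn_open_of_ae_eq hae2 isOpen_Ioi hncont continuousOn_const
  rcases ht.eq_or_lt with rfl | htpos
  · rfl
  · have := heqon htpos
    simp only [hn] at this
    linarith

end Vale.Agent.Lib.P140
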