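import Vale.Agent.Lib.P140.Main

open MeasureTheory Set Filter Topology
open scoped ENNReal ContDiff

noncomputable section

namespace Vale.Agent.Lib.P140

lemma measurableSet_cube : MeasurableSet cube := by
  have : cube = ⋂ i : Fin 3, (fun x : R3 => x i) ⁻¹' Ico (0:ℝ) 1 := by
    ext x; simp [cube]
  rw [this]
  refine MeasurableSet.iInter fun i => ?_
  exact measurableSet_Ico.preimage (by fun_prop)

/-- The integral over the unit cube of `ℝ³`, in the coordinates of `Fin 3 → ℝ`. -/
lemma integral_cube_eq (h : R3 → ℝ) :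
    ∫ x, h x ∂muX = ∫ y in Icc (0 : Fin 3 → ℝ) 1, h (WithLp.toLp 2 y) := by
  have hmp := PiLp.volume_preserving_toLp (Fin 3)
  have hme : MeasurableEmbedding (@WithLp.toLp 2 (Fin 3 → ℝ)) :=
    (MeasurableEquiv.toLp 2 (Fin 3 → ℝ)).measurableEmbedding
  have h1 := hmp.setIntegral_preimage_emb hme h cube
  have h2 : (@WithLp.toLp 2 (Fin 3 → ℝ)) ⁻¹' cube = pi univ fun _ => Ico (0:ℝ) 1 := by
    ext y; simp [cube]
  rw [h2] at h1
  unfold muX
  rw [← h1, volume_pi]
  have h3 := Measure.univ_pi_Ico_ae_eq_Icc (μ := fun _ : Fin 3 => (volume : Measure ℝ))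
    (f := (0 : Fin 3 → ℝ)) (g := 1)
  simp only [Pi.zero_apply, Pi.one_apply] at h3
  exact setIntegral_congr_set h3

/-- The integral over the torus of a derivative of a periodic function vanishes. -/
lemma periodic_fderiv_integral (ψ : R3 → ℝ) (hψ : ContDiff ℝ 1 ψ)
    (hper : ∀ x i, ψ (x + EuclideanSpace.single i (1:ℝ)) = ψ x) (w : R3) :
    ∫ x, fderiv ℝ ψ x w ∂muX = 0 := by
  rw [integral_cube_eq]
  set E : (Fin 3 → ℝ) ≃L[ℝ] R3 := (EuclideanSpace.equiv (Fin 3) ℝ).symm with hE
  have hEapp : ∀ y, E y = WithLp.toLp 2 y := fun _ => rfl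
  set P : (Fin 3 → ℝ) → ℝ := fun y => ψ (E y) with hP
  have hPsmooth : ContDiff ℝ 1 P := hψ.comp E.contDiff
  have hPd : ∀ y, HasFDerivAt P (fderiv ℝ P y) y := fun y =>
    (hPsmooth.differentiable (by norm_num) y).hasFDerivAt
  have hPfd : ∀ y v, fderiv ℝ P y v = fderiv ℝ ψ (E y) (E v) := by
    intro y v
    have h1 : HasFDerivAt P ((fderiv ℝ ψ (E y)).comp (E : (Fin 3 → ℝ) →L[ℝ] R3)) y :=
      ((hψ.differentiable (by norm_num) (E y)).hasFDerivAt).comp y E.hasFDerivAt
    rw [h1.fderiv]
    rfl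
  have hPcont : Continuous (fderiv ℝ P) := hPsmooth.continuous_fderiv (by norm_num)
  have hdiv := integral_divergence_of_hasFDerivAt_off_countable' (n := 2)
    (a := (0 : Fin 3 → ℝ)) (b := 1) zero_le_one
    (fun i y => P y * w i) (fun i y => (w i) • fderiv ℝ P y) ∅ countable_empty
    (fun i => (hPsmooth.continuous.mul continuous_const).continuousOn)
    (fun y _ i => by
      have := (hPd y).mul_const (w i)
      simpa [mul_comm] using this)
    (by
      apply Continuous.integrableOn_Icc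
      refine continuous_finsetSum _ fun i _ => ?_
      have hc : Continuous fun y => fderiv ℝ P y (Pi.single i 1) :=
        hPcont.clm_apply continuous_const
      have hc2 : Continuous fun y => (w i) * fderiv ℝ P y (Pi.single i 1) :=
        continuous_const.mul hc
      exact hc2.congr fun y => by simp)
  have hL : ∀ y, ∑ i, ((w i) • fderiv ℝ P y) (Pi.single i 1) = fderiv ℝ ψ (WithLp.toLp 2 y) w := by
    intro y
    have h1 : w = E (fun i => w i) := by
      ext i; rfl
    conv_rhs => rw [h1, ← hEapp, ← hPfd]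
    have h2 : (fun i => w i) = ∑ i, (w i) • (Pi.single i (1:ℝ) : Fin 3 → ℝ) := by
      funext j
      simp [Finset.sum_apply, Pi.single_apply]
    rw [h2, map_sum]
    refine Finset.sum_congr rfl fun i _ => ?_
    simp
  simp_rw [hL] at hdiv
  rw [hdiv]
  refine Finset.sum_eq_zero fun i _ => ?_
  rw [sub_eq_zero]
  refine integral_congr_ae (Eventually.of_forall fun z => ?_)
  simp only []
  congr 1
  have h3 : E (Fin.insertNth i ((1 : Fin 3 → ℝ) i) z) =
      E (Fin.insertNth i ((0 : Fin 3 → ℝ) i) z) + EuclideanSpace.single i (1:ℝ) := by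
    ext j
    rcases Fin.eq_self_or_eq_succAbove i j with rfl | ⟨k, rfl⟩
    · simp [hEapp]
    · have hne : i.succAbove k ≠ i := Fin.succAbove_ne i k
      simp [hEapp, hne]
  simp only [hP]
  rw [h3, hper]

end Vale.Agent.Lib.P140
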